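import Mathlib
import Crest.Agent.Helper52.PP.Count
import Crest.Agent.Helper52.PP.Perm
import Crest.Agent.Helper52.S0076.DenseHost

/-!
# Local automorphism bounds from the stabiliser bound (helper77; conditional package for row 55)

Two general consequences of the stabiliser bound `hstab` (verbatim the hypothesis of helper52's
`dens_of_stab`) for the host `E₀`, requested by helper68 (#5923):

* `localAut_le_of_stab` : for `A ⊆ E₀` and a vertex set `U ⊇ vset A`, the permutations that are
  supported on `U` and stabilise `A` number at most `2 (n)_{|U|} p^{|A|}`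
  (the thinkers' `(E)`: `aut_U(A) ≤ 2 (n)_{|U|} p^{|A|}`);
* `sunflower_of_stab`   : hence any injective family `σ : Perm (Fin M) → Perm (Fin n)` of such
  permutations gives `M! ≤ 2 (n)_{|U|} p^{|A|}`  ("kernel + `M` petals").

Nothing here proves a spread bound.
-/

set_option autoImplicit false
set_option linter.unusedSectionVars false
set_option linter.unusedVariables false

namespace Crest.Agent.Helper77.S0076

open Finset Crest.CombinatoricsR.RandomGraph Crest.Agent.Helper52.PP

/-- **Local automorphisms**: for `A ⊆ E₀` and `U ⊇ vset A`, the permutations fixing every vertex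
outside `U` and stabilising `A` number at most `2 (n)_{|U|} p^{|A|}`. -/
theorem localAut_le_of_stab {n : ℕ} (E₀ : Finset (EdgeSlot n)) (p : ℝ) (hp0 : 0 ≤ p)
    (hstab : ∀ A ⊆ E₀, (((Finset.univ.filter (fun σ : Equiv.Perm (Fin n) =>
        A.map (slotPerm σ).toEmbedding = A)).card : ℕ) : ℝ)
          ≤ 2 * (n.factorial : ℝ) * p ^ A.card)
    (A : Finset (EdgeSlot n)) (hA : A ⊆ E₀) (U : Finset (Fin n)) (hU : vset A ⊆ U) :
    (((Finset.univ.filter (fun σ : Equiv.Perm (Fin n) =>
        (∀ x, x ∉ U → σ x = x) ∧ A.map (slotPerm σ).toEmbedding = A)).card : ℕ) : ℝ)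
      ≤ 2 * (n.descFactorial U.card : ℝ) * p ^ A.card := by
  classical
  set S : Finset (Equiv.Perm (Fin n)) := Finset.univ.filter (fun σ : Equiv.Perm (Fin n) =>
        (∀ x, x ∉ U → σ x = x) ∧ A.map (slotPerm σ).toEmbedding = A) with hS
  set F : Finset (Equiv.Perm (Fin n)) :=
    Finset.univ.filter (fun σ : Equiv.Perm (Fin n) => ∀ x ∈ U, σ x = x) with hF
  set St : Finset (Equiv.Perm (Fin n)) := Finset.univ.filter (fun σ : Equiv.Perm (Fin n) =>
        A.map (slotPerm σ).toEmbedding = A) with hSt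
  have hUn : U.card ≤ n := by
    have := Finset.card_le_univ U
    rwa [Fintype.card_fin] at this
  -- a permutation fixing `U` pointwise fixes every slot of `A`
  have hfixslot : ∀ τ ∈ F, ∀ s ∈ A, slotPerm τ s = s := by
    intro τ hτ s hs
    rw [hF, Finset.mem_filter] at hτ
    apply Subtype.ext
    rw [slotPerm_val]
    obtain ⟨a, b, hab⟩ : ∃ a b : Fin n, s.1 = s(a, b) :=
      Sym2.ind (fun a b => ⟨a, b, rfl⟩) s.1
    have ha : a ∈ U :=
      hU ((mem_vset A a).2 ⟨s, hs, by rw [hab]; exact Sym2.mem_mk_left a b⟩)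
    have hb : b ∈ U :=
      hU ((mem_vset A b).2 ⟨s, hs, by rw [hab]; exact Sym2.mem_mk_right a b⟩)
    rw [hab, Sym2.map_mk, hτ.2 a ha, hτ.2 b hb]
  -- `(σ, τ) ↦ σ * τ` is an injection `S × F → St`
  have hinj : (S ×ˢ F).card ≤ St.card := by
    apply Finset.card_le_card_of_injOn
      (fun q : Equiv.Perm (Fin n) × Equiv.Perm (Fin n) => q.1 * q.2)
    · rintro ⟨σ, τ⟩ hq
      have hq' := Finset.mem_product.1 (Finset.mem_coe.1 hq)
      have hσ := (Finset.mem_filter.1 hq'.1).2
      rw [Finset.mem_coe, hSt, Finset.mem_filter]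
      refine ⟨Finset.mem_univ _, ?_⟩
      apply Crest.Agent.Helper52.S0076.map_slotPerm_eq_of_forall_mem
      intro s hs
      rw [slotPerm_mul]
      show slotPerm σ (slotPerm τ s) ∈ A
      rw [hfixslot τ hq'.2 s hs]
      have hmem : slotPerm σ s ∈ A.map (slotPerm σ).toEmbedding :=
        Finset.mem_map_of_mem (slotPerm σ).toEmbedding hs
      rw [hσ.2] at hmem
      exact hmem
    · rintro ⟨σ, τ⟩ hq ⟨σ', τ'⟩ hq' h
      have hq1 := Finset.mem_product.1 (Finset.mem_coe.1 hq)
      have hq2 := Finset.mem_product.1 (Finset.mem_coe.1 hq')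
      have hσ := (Finset.mem_filter.1 hq1.1).2
      have hσ' := (Finset.mem_filter.1 hq2.1).2
      have hτ := (Finset.mem_filter.1 hq1.2).2
      have hτ' := (Finset.mem_filter.1 hq2.2).2
      have h' : σ * τ = σ' * τ' := h
      have hσeq : σ = σ' := by
        apply Equiv.ext
        intro x
        by_cases hx : x ∈ U
        · have h2 := congrArg (fun π : Equiv.Perm (Fin n) => π x) h'
          simp only [Equiv.Perm.mul_apply] at h2
          rw [hτ x hx, hτ' x hx] at h2
          exact h2
        · rw [hσ.1 x hx, hσ'.1 x hx]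
      subst hσeq
      have hτeq : τ = τ' := mul_left_cancel h'
      rw [hτeq]
  have hFcard : (n - U.card).factorial ≤ F.card :=
    Crest.Agent.Helper52.S0076.factorial_le_card_fix U
  have hnat : S.card * (n - U.card).factorial ≤ St.card := by
    calc S.card * (n - U.card).factorial ≤ S.card * F.card := Nat.mul_le_mul_left _ hFcard
      _ = (S ×ˢ F).card := (Finset.card_product S F).symm
      _ ≤ St.card := hinj
  have h3 : ((St.card : ℕ) : ℝ) ≤ 2 * (n.factorial : ℝ) * p ^ A.card := hstab A hA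
  have hfac := Nat.factorial_mul_descFactorial hUn
  have hpos : (0 : ℝ) < ((n - U.card).factorial : ℝ) := by
    exact_mod_cast Nat.factorial_pos _
  have h4 : ((S.card : ℕ) : ℝ) * ((n - U.card).factorial : ℝ)
      ≤ 2 * (n.factorial : ℝ) * p ^ A.card := by
    refine le_trans ?_ h3
    exact_mod_cast hnat
  rw [← hfac] at h4
  push_cast at h4
  have h5 : ((n - U.card).factorial : ℝ) * ((S.card : ℕ) : ℝ)
      ≤ ((n - U.card).factorial : ℝ) * (2 * (n.descFactorial U.card : ℝ) * p ^ A.card) := by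
    calc ((n - U.card).factorial : ℝ) * ((S.card : ℕ) : ℝ)
        = ((S.card : ℕ) : ℝ) * ((n - U.card).factorial : ℝ) := mul_comm _ _
      _ ≤ 2 * (((n - U.card).factorial : ℝ) * (n.descFactorial U.card : ℝ)) * p ^ A.card := h4
      _ = ((n - U.card).factorial : ℝ) * (2 * (n.descFactorial U.card : ℝ) * p ^ A.card) := by
          ring
  exact le_of_mul_le_mul_left h5 hpos

/-- **Sunflower / petal bound**: an injective family `σ : Perm (Fin M) → Perm (Fin n)` of
permutations supported on `U ⊇ vset A` that map `A ⊆ E₀` into itself forces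
`M! ≤ 2 (n)_{|U|} p^{|A|}`. -/
theorem sunflower_of_stab {n : ℕ} (E₀ : Finset (EdgeSlot n)) (p : ℝ) (hp0 : 0 ≤ p)
    (hstab : ∀ A ⊆ E₀, (((Finset.univ.filter (fun σ : Equiv.Perm (Fin n) =>
        A.map (slotPerm σ).toEmbedding = A)).card : ℕ) : ℝ)
          ≤ 2 * (n.factorial : ℝ) * p ^ A.card)
    (A : Finset (EdgeSlot n)) (hA : A ⊆ E₀) (U : Finset (Fin n)) (hU : vset A ⊆ U) (M : ℕ)
    (σ : Equiv.Perm (Fin M) → Equiv.Perm (Fin n)) (hinj : Function.Injective σ)
    (hsupp : ∀ ρ x, x ∉ U → σ ρ x = x) (hfix : ∀ ρ, ∀ s ∈ A, slotPerm (σ ρ) s ∈ A) :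
    (M.factorial : ℝ) ≤ 2 * (n.descFactorial U.card : ℝ) * p ^ A.card := by
  classical
  have h1 := localAut_le_of_stab E₀ p hp0 hstab A hA U hU
  refine le_trans ?_ h1
  have hcard : Fintype.card (Equiv.Perm (Fin M)) = M.factorial := by
    rw [Fintype.card_perm, Fintype.card_fin]
  have hle : M.factorial ≤ (Finset.univ.filter (fun τ : Equiv.Perm (Fin n) =>
        (∀ x, x ∉ U → τ x = x) ∧ A.map (slotPerm τ).toEmbedding = A)).card := by
    rw [← hcard, ← Finset.card_univ]
    apply Finset.card_le_card_of_injOn σ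
    · intro ρ _
      rw [Finset.mem_coe, Finset.mem_filter]
      exact ⟨Finset.mem_univ _, hsupp ρ,
        Crest.Agent.Helper52.S0076.map_slotPerm_eq_of_forall_mem (σ ρ) A (hfix ρ)⟩
    · intro ρ _ ρ' _ h
      exact hinj h
  exact_mod_cast hle

end Crest.Agent.Helper77.S0076
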