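import Mathlib
import Crest.Agent.Helper77.S0076.AutHost
import Crest.Agent.Helper84.S0076.Petal

/-!
# Kernel + petals: the factorial bound (helper77; conditional package for row 55)

Glue of `sunflower_of_stab` (this folder) with helper84's `petalPerm`:
if `g : Fin M × D → Fin n` is injective (`M` pairwise disjoint petals `g (i, ·)`) and `A ⊆ E₀`
is invariant under all petal permutations and supported on `U ⊇ range g`
(resp. on `B ∪ range g` with `B` disjoint from the petals), then

  `M! ≤ 2 (n)_{|U|} p^{|A|}`   (resp. `M! ≤ 2 (n)_{|B| + M |D|} p^{|A|}`).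

Nothing here proves a spread bound.
-/

set_option autoImplicit false
set_option linter.unusedSectionVars false
set_option linter.unusedVariables false

namespace Crest.Agent.Helper77.S0076

open Finset Crest.CombinatoricsR.RandomGraph Crest.Agent.Helper52.PP Crest.Agent.Helper84.S0076

/-- Petal bound, support given as any `U ⊇ vset A ∪ range g`. -/
theorem petal_factorial_le_of_stab_univ {n M : ℕ} {D : Type} [Nonempty D]
    (E₀ : Finset (EdgeSlot n)) (p : ℝ) (hp0 : 0 ≤ p)
    (hstab : ∀ A ⊆ E₀, (((Finset.univ.filter (fun σ : Equiv.Perm (Fin n) =>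
        A.map (slotPerm σ).toEmbedding = A)).card : ℕ) : ℝ)
          ≤ 2 * (n.factorial : ℝ) * p ^ A.card)
    (g : Fin M × D → Fin n) (hg : Function.Injective g)
    (A : Finset (EdgeSlot n)) (hA : A ⊆ E₀) (U : Finset (Fin n)) (hU : vset A ⊆ U)
    (hgU : ∀ q, g q ∈ U)
    (hinv : ∀ ρ : Equiv.Perm (Fin M), ∀ s ∈ A, slotPerm (petalPerm g hg ρ) s ∈ A) :
    (M.factorial : ℝ) ≤ 2 * (n.descFactorial U.card : ℝ) * p ^ A.card := by
  refine sunflower_of_stab E₀ p hp0 hstab A hA U hU M (petalPerm g hg)
    (petalPerm_injective g hg) ?_ hinv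
  intro ρ x hx
  apply petalPerm_apply_of_not_range g hg ρ x
  rintro ⟨q, rfl⟩
  exact hx (hgU q)

/-- Petal bound, kernel `B` disjoint from the `M` petals of shape `D`:
`M! ≤ 2 (n)_{|B| + M |D|} p^{|A|}` for every petal-invariant `A ⊆ E₀` supported on
`B ∪ range g`. -/
theorem petal_factorial_le_of_stab {n M : ℕ} {D : Type} [Fintype D] [Nonempty D]
    (E₀ : Finset (EdgeSlot n)) (p : ℝ) (hp0 : 0 ≤ p)
    (hstab : ∀ A ⊆ E₀, (((Finset.univ.filter (fun σ : Equiv.Perm (Fin n) =>
        A.map (slotPerm σ).toEmbedding = A)).card : ℕ) : ℝ)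
          ≤ 2 * (n.factorial : ℝ) * p ^ A.card)
    (g : Fin M × D → Fin n) (hg : Function.Injective g)
    (B : Finset (Fin n)) (hB : ∀ q, g q ∉ B)
    (A : Finset (EdgeSlot n)) (hA : A ⊆ E₀)
    (hsupp : ∀ v ∈ vset A, v ∈ B ∨ v ∈ Set.range g)
    (hinv : ∀ ρ : Equiv.Perm (Fin M), ∀ s ∈ A, slotPerm (petalPerm g hg ρ) s ∈ A) :
    (M.factorial : ℝ)
      ≤ 2 * (n.descFactorial (B.card + M * Fintype.card D) : ℝ) * p ^ A.card := by
  classical
  have hdisj : Disjoint B (Finset.univ.image g) := by
    rw [Finset.disjoint_left]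
    intro x hxB hx
    rw [Finset.mem_image] at hx
    obtain ⟨q, -, rfl⟩ := hx
    exact hB q hxB
  have hcard : (B ∪ Finset.univ.image g).card = B.card + M * Fintype.card D := by
    rw [Finset.card_union_of_disjoint hdisj, Finset.card_image_of_injective _ hg,
      Finset.card_univ, Fintype.card_prod, Fintype.card_fin]
  rw [← hcard]
  refine petal_factorial_le_of_stab_univ E₀ p hp0 hstab g hg A hA (B ∪ Finset.univ.image g)
    ?_ ?_ hinv
  · intro v hv
    rcases hsupp v hv with h | ⟨q, rfl⟩
    · exact Finset.mem_union_left _ h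
    · exact Finset.mem_union_right _ (Finset.mem_image_of_mem g (Finset.mem_univ q))
  · intro q
    exact Finset.mem_union_right _ (Finset.mem_image_of_mem g (Finset.mem_univ q))

end Crest.Agent.Helper77.S0076
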