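import Mathlib
import Crest.Agent.Helper52.PP.Count
import Crest.Agent.Helper52.PP.Perm

/-!
# Star closures: definitions (helper77; conditional package for row 55)

Definitions for the formalisation of helper68's closure-type packing
(`notes/s0076_helper68_closure.md`, spread lemma for `n p ≤ 1`):

* `hAdj E₀ x y`      : `x`, `y` are joined by a slot of the host `E₀`;
* `embs E₀ T`        : the embeddings of the pattern `T` into the host, as maps `Fin n → Fin n`
                       that are the identity off `vset T`, injective on `vset T`, and send every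
                       slot of `T` to a slot of `E₀`;
* `starCl E₀ B`      : the star closure of a vertex set `B` (all host slots meeting `B`);
* `outCls E₀ T φ N`  : the outside vertices whose host neighbourhood inside `φ(vset T)` is
                       exactly `φ(N)` (`N ⊆ vset T` nonempty);
* `exEdges E₀ T φ`   : the pairs inside `vset T` that are not slots of `T` but whose `φ`-image
                       is a host slot (`E'` of the note);
* `PatConn T`        : the pattern `T` is connected (partition form).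

Nothing here proves a spread bound.
-/

set_option autoImplicit false
set_option linter.unusedSectionVars false
set_option linter.unusedVariables false

namespace Crest.Agent.Helper77.S0076

open Finset Crest.CombinatoricsR.RandomGraph Crest.Agent.Helper52.PP
open scoped Classical

variable {n : ℕ}

/-- Host adjacency. -/
def hAdj (E₀ : Finset (EdgeSlot n)) (x y : Fin n) : Prop := ∃ s ∈ E₀, s.1 = s(x, y)

lemma hAdj_symm (E₀ : Finset (EdgeSlot n)) {x y : Fin n} (h : hAdj E₀ x y) : hAdj E₀ y x := by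
  obtain ⟨s, hs, hxy⟩ := h
  exact ⟨s, hs, by rw [hxy, Sym2.eq_swap]⟩

lemma hAdj_ne (E₀ : Finset (EdgeSlot n)) {x y : Fin n} (h : hAdj E₀ x y) : x ≠ y := by
  obtain ⟨s, hs, hxy⟩ := h
  intro hxy'
  apply s.2
  rw [hxy, hxy']
  exact Sym2.mk_isDiag_iff.2 rfl

/-- Embeddings of the pattern `T` into the host `E₀` (identity off `vset T`). -/
noncomputable def embs (E₀ T : Finset (EdgeSlot n)) : Finset (Fin n → Fin n) :=
  Finset.univ.filter (fun φ : Fin n → Fin n =>
    (∀ x, x ∉ vset T → φ x = x) ∧ Set.InjOn φ (vset T : Set (Fin n)) ∧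
      ∀ t ∈ T, ∃ s ∈ E₀, s.1 = Sym2.map φ t.1)

lemma mem_embs (E₀ T : Finset (EdgeSlot n)) (φ : Fin n → Fin n) :
    φ ∈ embs E₀ T ↔ (∀ x, x ∉ vset T → φ x = x) ∧ Set.InjOn φ (vset T : Set (Fin n)) ∧
      ∀ t ∈ T, ∃ s ∈ E₀, s.1 = Sym2.map φ t.1 := by
  unfold embs
  rw [Finset.mem_filter]
  exact ⟨fun h => h.2, fun h => ⟨Finset.mem_univ _, h⟩⟩

/-- The star closure of the vertex set `B`: all host slots with an endpoint in `B`. -/
noncomputable def starCl (E₀ : Finset (EdgeSlot n)) (B : Finset (Fin n)) : Finset (EdgeSlot n) :=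
  E₀.filter (fun s => ∃ x ∈ B, x ∈ s.1)

lemma mem_starCl (E₀ : Finset (EdgeSlot n)) (B : Finset (Fin n)) (s : EdgeSlot n) :
    s ∈ starCl E₀ B ↔ s ∈ E₀ ∧ ∃ x ∈ B, x ∈ s.1 := by
  unfold starCl
  rw [Finset.mem_filter]

lemma starCl_subset (E₀ : Finset (EdgeSlot n)) (B : Finset (Fin n)) : starCl E₀ B ⊆ E₀ := by
  intro s hs
  exact ((mem_starCl E₀ B s).1 hs).1

/-- The outside vertices whose neighbourhood inside `φ(vset T)` is exactly `φ(N)`. -/
noncomputable def outCls (E₀ T : Finset (EdgeSlot n)) (φ : Fin n → Fin n) (N : Finset (Fin n)) :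
    Finset (Fin n) :=
  Finset.univ.filter (fun u : Fin n =>
    u ∉ (vset T).image φ ∧ N ⊆ vset T ∧ N.Nonempty ∧
      ∀ x ∈ vset T, (hAdj E₀ (φ x) u ↔ x ∈ N))

lemma mem_outCls (E₀ T : Finset (EdgeSlot n)) (φ : Fin n → Fin n) (N : Finset (Fin n))
    (u : Fin n) :
    u ∈ outCls E₀ T φ N ↔ u ∉ (vset T).image φ ∧ N ⊆ vset T ∧ N.Nonempty ∧
      ∀ x ∈ vset T, (hAdj E₀ (φ x) u ↔ x ∈ N) := by
  unfold outCls
  rw [Finset.mem_filter]
  exact ⟨fun h => h.2, fun h => ⟨Finset.mem_univ _, h⟩⟩

/-- The extra edges: pairs inside `vset T`, not in `T`, whose image is a host slot. -/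
noncomputable def exEdges (E₀ T : Finset (EdgeSlot n)) (φ : Fin n → Fin n) :
    Finset (EdgeSlot n) :=
  Finset.univ.filter (fun t : EdgeSlot n =>
    t ∉ T ∧ (∀ x ∈ t.1, x ∈ vset T) ∧ ∃ s ∈ E₀, s.1 = Sym2.map φ t.1)

lemma mem_exEdges (E₀ T : Finset (EdgeSlot n)) (φ : Fin n → Fin n) (t : EdgeSlot n) :
    t ∈ exEdges E₀ T φ ↔ t ∉ T ∧ (∀ x ∈ t.1, x ∈ vset T) ∧ ∃ s ∈ E₀, s.1 = Sym2.map φ t.1 := by
  unfold exEdges
  rw [Finset.mem_filter]
  exact ⟨fun h => h.2, fun h => ⟨Finset.mem_univ _, h⟩⟩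

/-- The pattern `T` is connected: it is nonempty and cannot be split into two nonempty parts
with disjoint vertex sets. -/
def PatConn (T : Finset (EdgeSlot n)) : Prop :=
  T.Nonempty ∧ ∀ T₁ ⊆ T, T₁.Nonempty → (T \ T₁).Nonempty →
    ¬ Disjoint (vset T₁) (vset (T \ T₁))

end Crest.Agent.Helper77.S0076
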