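import Mathlib

/-!
# Kraft bound for connected vertex sets (helper77; conditional package for row 55)

The conflict lemma (C) of helper68's closure-type packing (`notes/s0076_helper68_closure.md`):
for a neighbourhood function `N : V → Finset V` on a finite type, a root `w` and `θ > 0`,

  `∑ over the vertex sets B ∋ w that are connected from w of θ^{|B|-1} (1+θ)^{-∑_{u∈B} |N u|} ≤ 1`,

hence  `#{B connected from w, |B| = v, ∑_{u∈B} |N u| = D} · θ^{v-1} ≤ (1+θ)^D`.

"Connected from `w`" is the closure form `ConnFrom N w B`: the only subset `R ⊆ B` that contains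
`w` and is closed under `N` inside `B` is `B` itself.  The proof is the queue exploration: the
processed vertex `u` chooses the subset `c ⊆ N u` of its new neighbours with weight
`θ^{|c|} (1+θ)^{-|N u|}`, and these weights sum to at most `1` at every step.
Mathlib only; nothing here proves a spread bound.
-/

set_option autoImplicit false
set_option linter.unusedSectionVars false
set_option linter.unusedVariables false

namespace Crest.Agent.Helper77.S0076

open Finset
open scoped Classical

variable {V : Type} [Fintype V] [DecidableEq V]

/-- `U` (the undiscovered part) is exhausted by the exploration started from the queue `Q`. -/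
def ExplFrom (N : V → Finset V) (Q U : Finset V) : Prop :=
  ∀ R : Finset V, R ⊆ U → (∀ y ∈ U, (∃ x ∈ Q ∪ R, y ∈ N x) → y ∈ R) → R = U

/-- The exploration weight of `U` from the queue `Q`. -/
noncomputable def explWeight (N : V → Finset V) (θ : ℝ) (Q U : Finset V) : ℝ :=
  θ ^ U.card * ∏ x ∈ Q ∪ U, ((1 + θ) ^ (N x).card)⁻¹

lemma explWeight_nonneg (N : V → Finset V) (θ : ℝ) (hθ : 0 < θ) (Q U : Finset V) :
    0 ≤ explWeight N θ Q U := by
  unfold explWeight
  apply mul_nonneg (pow_nonneg hθ.le _)
  apply Finset.prod_nonneg
  intro x _
  have : (0 : ℝ) < (1 + θ) ^ (N x).card := by positivity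
  exact (inv_pos.2 this).le

lemma explFrom_empty (N : V → Finset V) (U : Finset V) (h : ExplFrom N ∅ U) : U = ∅ := by
  have h1 := h ∅ (Finset.empty_subset _) (by
    intro y _ hx
    obtain ⟨x, hx, _⟩ := hx
    simp at hx)
  exact h1.symm

lemma expl_sum_empty (N : V → Finset V) (θ : ℝ) (hθ : 0 < θ) (S : Finset V) :
    ∑ U ∈ (Sᶜ.powerset).filter (fun U => ExplFrom N ∅ U), explWeight N θ ∅ U ≤ 1 := by
  classical
  have hsub : (Sᶜ.powerset).filter (fun U => ExplFrom N ∅ U) ⊆ ({∅} : Finset (Finset V)) := by
    intro U hU
    rw [Finset.mem_filter] at hU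
    rw [Finset.mem_singleton]
    exact explFrom_empty N U hU.2
  calc ∑ U ∈ (Sᶜ.powerset).filter (fun U => ExplFrom N ∅ U), explWeight N θ ∅ U
      ≤ ∑ U ∈ ({∅} : Finset (Finset V)), explWeight N θ ∅ U :=
        Finset.sum_le_sum_of_subset_of_nonneg hsub
          (fun U _ _ => explWeight_nonneg N θ hθ ∅ U)
    _ = 1 := by
        rw [Finset.sum_singleton]
        unfold explWeight
        simp

/-- The exploration weights sum to at most one. -/
lemma expl_sum_le_one (N : V → Finset V) (θ : ℝ) (hθ : 0 < θ) (m : ℕ) :
    ∀ S Q : Finset V, Q ⊆ S → (Sᶜ).card + Q.card ≤ m →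
      ∑ U ∈ (Sᶜ.powerset).filter (fun U => ExplFrom N Q U), explWeight N θ Q U ≤ 1 := by
  classical
  induction m with
  | zero =>
    intro S Q hQS hm
    have hQ : Q = ∅ := by
      have : Q.card = 0 := by omega
      exact Finset.card_eq_zero.1 this
    subst hQ
    exact expl_sum_empty N θ hθ S
  | succ m ih =>
    intro S Q hQS hm
    rcases Finset.eq_empty_or_nonempty Q with hQ | ⟨u, hu⟩
    · subst hQ
      exact expl_sum_empty N θ hθ S
    · have huS : u ∈ S := hQS hu
      have hθ1 : (0 : ℝ) < 1 + θ := by linarith
      -- fibre over the set `c` of new neighbours of `u`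
      have hmaps : ∀ U ∈ (Sᶜ.powerset).filter (fun U => ExplFrom N Q U),
          U.filter (fun x => x ∈ N u) ∈ (N u \ S).powerset := by
        intro U hU
        rw [Finset.mem_filter, Finset.mem_powerset] at hU
        rw [Finset.mem_powerset]
        intro x hx
        rw [Finset.mem_filter] at hx
        rw [Finset.mem_sdiff]
        exact ⟨hx.2, Finset.mem_compl.1 (hU.1 hx.1)⟩
      rw [← Finset.sum_fiberwise_of_maps_to hmaps]
      have hfiber : ∀ c ∈ (N u \ S).powerset,
          ∑ U ∈ ((Sᶜ.powerset).filter (fun U => ExplFrom N Q U)).filter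
              (fun U => U.filter (fun x => x ∈ N u) = c), explWeight N θ Q U
            ≤ θ ^ c.card * ((1 + θ) ^ (N u).card)⁻¹ := by
        intro c hc
        rw [Finset.mem_powerset] at hc
        have hcS : ∀ x ∈ c, x ∉ S := fun x hx => (Finset.mem_sdiff.1 (hc hx)).2
        have hcN : ∀ x ∈ c, x ∈ N u := fun x hx => (Finset.mem_sdiff.1 (hc hx)).1
        have huc : u ∉ c := fun h => hcS u h huS
        -- the new state
        have hQS' : Q.erase u ∪ c ⊆ S ∪ c := by
          intro x hx
          rcases Finset.mem_union.1 hx with h | h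
          · exact Finset.mem_union_left _ (hQS (Finset.mem_of_mem_erase h))
          · exact Finset.mem_union_right _ h
        have hcompl : (S ∪ c)ᶜ = Sᶜ \ c := by
          ext x
          simp only [Finset.mem_compl, Finset.mem_union, Finset.mem_sdiff, not_or]
        have hcsub : c ⊆ Sᶜ := fun x hx => Finset.mem_compl.2 (hcS x hx)
        have hmeas : ((S ∪ c)ᶜ).card + (Q.erase u ∪ c).card ≤ m := by
          have h1 : (Sᶜ \ c).card + c.card = (Sᶜ).card :=
            Finset.card_sdiff_add_card_eq_card hcsub
          have h2 : (Q.erase u ∪ c).card ≤ (Q.erase u).card + c.card := Finset.card_union_le _ _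
          have h3 : (Q.erase u).card = Q.card - 1 := Finset.card_erase_of_mem hu
          have h4 : 0 < Q.card := Finset.card_pos.2 ⟨u, hu⟩
          rw [hcompl]
          omega
        have ih' := ih (S ∪ c) (Q.erase u ∪ c) hQS' hmeas
        -- weight identity on the fibre
        have hwt : ∀ U ∈ ((Sᶜ.powerset).filter (fun U => ExplFrom N Q U)).filter
              (fun U => U.filter (fun x => x ∈ N u) = c),
            explWeight N θ Q U
              = θ ^ c.card * ((1 + θ) ^ (N u).card)⁻¹ * explWeight N θ (Q.erase u ∪ c) (U \ c) := by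
          intro U hU
          rw [Finset.mem_filter, Finset.mem_filter, Finset.mem_powerset] at hU
          obtain ⟨⟨hUS, -⟩, hUc⟩ := hU
          have hcU : c ⊆ U := by
            rw [← hUc]
            exact Finset.filter_subset _ _
          have huU : u ∉ U := fun h => (Finset.mem_compl.1 (hUS h)) huS
          have hcard : U.card = c.card + (U \ c).card := by
            have := Finset.card_sdiff_add_card_eq_card hcU
            omega
          have hset : Q ∪ U = insert u ((Q.erase u ∪ c) ∪ (U \ c)) := by
            ext x
            simp only [Finset.mem_union, Finset.mem_insert, Finset.mem_erase, Finset.mem_sdiff]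
            constructor
            · rintro (h | h)
              · by_cases hxu : x = u
                · exact Or.inl hxu
                · exact Or.inr (Or.inl (Or.inl ⟨hxu, h⟩))
              · by_cases hxc : x ∈ c
                · exact Or.inr (Or.inl (Or.inr hxc))
                · exact Or.inr (Or.inr ⟨h, hxc⟩)
            · rintro (h | (h | h) | h)
              · rw [h]; exact Or.inl hu
              · exact Or.inl h.2
              · exact Or.inr (hcU h)
              · exact Or.inr h.1
          have hnot : u ∉ (Q.erase u ∪ c) ∪ (U \ c) := by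
            simp only [Finset.mem_union, Finset.mem_erase, Finset.mem_sdiff, not_or]
            refine ⟨⟨fun h => h.1 rfl, huc⟩, fun h => huU h.1⟩
          unfold explWeight
          rw [hset, Finset.prod_insert hnot, hcard, pow_add]
          ring
        -- `U ↦ U \ c` maps the fibre injectively into the new family
        have himg : (((Sᶜ.powerset).filter (fun U => ExplFrom N Q U)).filter
              (fun U => U.filter (fun x => x ∈ N u) = c)).image (fun U => U \ c)
            ⊆ (((S ∪ c)ᶜ).powerset).filter (fun U' => ExplFrom N (Q.erase u ∪ c) U') := by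
          intro U' hU'
          rw [Finset.mem_image] at hU'
          obtain ⟨U, hU, rfl⟩ := hU'
          rw [Finset.mem_filter, Finset.mem_filter, Finset.mem_powerset] at hU
          obtain ⟨⟨hUS, hExp⟩, hUc⟩ := hU
          have hcU : c ⊆ U := by
            rw [← hUc]
            exact Finset.filter_subset _ _
          rw [Finset.mem_filter, Finset.mem_powerset]
          constructor
          · rw [hcompl]
            exact Finset.sdiff_subset_sdiff hUS (Finset.Subset.refl c)
          · intro R' hR' hclosed
            have hR : R' ∪ c = U := by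
              apply hExp (R' ∪ c)
              · intro x hx
                rcases Finset.mem_union.1 hx with h | h
                · exact (Finset.mem_sdiff.1 (hR' h)).1
                · exact hcU h
              · intro y hy hx
                obtain ⟨x, hx, hyx⟩ := hx
                by_cases hyc : y ∈ c
                · exact Finset.mem_union_right _ hyc
                · apply Finset.mem_union_left
                  apply hclosed y (Finset.mem_sdiff.2 ⟨hy, hyc⟩)
                  have hxu : x ≠ u := by
                    intro hxu
                    apply hyc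
                    rw [← hUc, Finset.mem_filter]
                    exact ⟨hy, hxu ▸ hyx⟩
                  refine ⟨x, ?_, hyx⟩
                  rcases Finset.mem_union.1 hx with h | h
                  · exact Finset.mem_union_left _
                      (Finset.mem_union_left _ (Finset.mem_erase.2 ⟨hxu, h⟩))
                  · rcases Finset.mem_union.1 h with h' | h'
                    · exact Finset.mem_union_right _ h'
                    · exact Finset.mem_union_left _ (Finset.mem_union_right _ h')
            apply Finset.Subset.antisymm hR'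
            intro y hy
            have hy' := Finset.mem_sdiff.1 hy
            have : y ∈ R' ∪ c := by rw [hR]; exact hy'.1
            rcases Finset.mem_union.1 this with h | h
            · exact h
            · exact absurd h hy'.2
        have hinjOn : Set.InjOn (fun U : Finset V => U \ c)
            (((Sᶜ.powerset).filter (fun U => ExplFrom N Q U)).filter
              (fun U => U.filter (fun x => x ∈ N u) = c) : Set (Finset V)) := by
          intro U hU U₂ hU₂ h
          have hU' := Finset.mem_coe.1 hU
          have hU₂' := Finset.mem_coe.1 hU₂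
          rw [Finset.mem_filter] at hU' hU₂'
          have hcU : c ⊆ U := by
            rw [← hU'.2]
            exact Finset.filter_subset _ _
          have hcU₂ : c ⊆ U₂ := by
            rw [← hU₂'.2]
            exact Finset.filter_subset _ _
          have h' : U \ c = U₂ \ c := h
          calc U = (U \ c) ∪ c := (Finset.sdiff_union_of_subset hcU).symm
            _ = (U₂ \ c) ∪ c := by rw [h']
            _ = U₂ := Finset.sdiff_union_of_subset hcU₂
        calc ∑ U ∈ ((Sᶜ.powerset).filter (fun U => ExplFrom N Q U)).filter
              (fun U => U.filter (fun x => x ∈ N u) = c), explWeight N θ Q U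
            = ∑ U ∈ ((Sᶜ.powerset).filter (fun U => ExplFrom N Q U)).filter
              (fun U => U.filter (fun x => x ∈ N u) = c),
                θ ^ c.card * ((1 + θ) ^ (N u).card)⁻¹
                  * explWeight N θ (Q.erase u ∪ c) (U \ c) := Finset.sum_congr rfl hwt
          _ = θ ^ c.card * ((1 + θ) ^ (N u).card)⁻¹ *
                ∑ U ∈ ((Sᶜ.powerset).filter (fun U => ExplFrom N Q U)).filter
                  (fun U => U.filter (fun x => x ∈ N u) = c),
                  explWeight N θ (Q.erase u ∪ c) (U \ c) := by rw [Finset.mul_sum]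
          _ = θ ^ c.card * ((1 + θ) ^ (N u).card)⁻¹ *
                ∑ U' ∈ (((Sᶜ.powerset).filter (fun U => ExplFrom N Q U)).filter
                  (fun U => U.filter (fun x => x ∈ N u) = c)).image (fun U => U \ c),
                  explWeight N θ (Q.erase u ∪ c) U' := by
              rw [Finset.sum_image hinjOn]
          _ ≤ θ ^ c.card * ((1 + θ) ^ (N u).card)⁻¹ *
                ∑ U' ∈ (((S ∪ c)ᶜ).powerset).filter (fun U' => ExplFrom N (Q.erase u ∪ c) U'),
                  explWeight N θ (Q.erase u ∪ c) U' := by
              apply mul_le_mul_of_nonneg_left _ (by positivity)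
              exact Finset.sum_le_sum_of_subset_of_nonneg himg
                (fun U' _ _ => explWeight_nonneg N θ hθ _ U')
          _ ≤ θ ^ c.card * ((1 + θ) ^ (N u).card)⁻¹ * 1 :=
              mul_le_mul_of_nonneg_left ih' (by positivity)
          _ = θ ^ c.card * ((1 + θ) ^ (N u).card)⁻¹ := mul_one _
      calc ∑ c ∈ (N u \ S).powerset,
            ∑ U ∈ ((Sᶜ.powerset).filter (fun U => ExplFrom N Q U)).filter
              (fun U => U.filter (fun x => x ∈ N u) = c), explWeight N θ Q U
          ≤ ∑ c ∈ (N u \ S).powerset, θ ^ c.card * ((1 + θ) ^ (N u).card)⁻¹ :=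
            Finset.sum_le_sum hfiber
        _ = (∑ c ∈ (N u \ S).powerset, θ ^ c.card) * ((1 + θ) ^ (N u).card)⁻¹ := by
            rw [Finset.sum_mul]
        _ = (θ + 1) ^ (N u \ S).card * ((1 + θ) ^ (N u).card)⁻¹ := by
            have h := Finset.sum_pow_mul_eq_add_pow θ (1 : ℝ) (N u \ S)
            simp only [one_pow, mul_one] at h
            rw [h]
        _ ≤ 1 := by
            rw [← div_eq_mul_inv, div_le_one (by positivity), add_comm θ 1]
            exact pow_le_pow_right₀ (by linarith) (Finset.card_le_card Finset.sdiff_subset)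

/-- `B` is connected from `w` (closure form). -/
def ConnFrom (N : V → Finset V) (w : V) (B : Finset V) : Prop :=
  w ∈ B ∧ ∀ R : Finset V, R ⊆ B → w ∈ R → (∀ x ∈ R, ∀ y ∈ B, y ∈ N x → y ∈ R) → R = B

lemma explFrom_of_connFrom (N : V → Finset V) (w : V) (B : Finset V) (h : ConnFrom N w B) :
    ExplFrom N {w} (B.erase w) := by
  classical
  intro R hR hclosed
  have hRB : insert w R = B := by
    apply h.2 (insert w R)
    · intro x hx
      rcases Finset.mem_insert.1 hx with rfl | hx'
      · exact h.1
      · exact Finset.mem_of_mem_erase (hR hx')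
    · exact Finset.mem_insert_self w R
    · intro x hx y hy hyx
      by_cases hyw : y = w
      · rw [hyw]; exact Finset.mem_insert_self w R
      · apply Finset.mem_insert_of_mem
        apply hclosed y (Finset.mem_erase.2 ⟨hyw, hy⟩)
        refine ⟨x, ?_, hyx⟩
        rcases Finset.mem_insert.1 hx with rfl | hx'
        · exact Finset.mem_union_left _ (Finset.mem_singleton_self _)
        · exact Finset.mem_union_right _ hx'
  apply Finset.Subset.antisymm hR
  intro y hy
  have hy' := Finset.mem_erase.1 hy
  have : y ∈ insert w R := by rw [hRB]; exact hy'.2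
  rcases Finset.mem_insert.1 this with h1 | h1
  · exact absurd h1 hy'.1
  · exact h1

/-- **Kraft inequality for connected sets.** -/
theorem kraft_conn_sum_le_one (N : V → Finset V) (w : V) (θ : ℝ) (hθ : 0 < θ) :
    ∑ B ∈ (Finset.univ : Finset (Finset V)).filter (fun B => ConnFrom N w B),
        θ ^ (B.card - 1) * ((1 + θ) ^ (∑ x ∈ B, (N x).card))⁻¹ ≤ 1 := by
  classical
  have hmain := expl_sum_le_one N θ hθ (((({w} : Finset V))ᶜ).card + ({w} : Finset V).card)
    {w} {w} (Finset.Subset.refl _) le_rfl
  refine le_trans ?_ hmain
  -- `B ↦ B.erase w` maps connected sets injectively into the exploration family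
  have hinjOn : Set.InjOn (fun B : Finset V => B.erase w)
      ((Finset.univ : Finset (Finset V)).filter (fun B => ConnFrom N w B) : Set (Finset V)) := by
    intro B hB B₂ hB₂ h
    have hB' := (Finset.mem_filter.1 (Finset.mem_coe.1 hB)).2
    have hB₂' := (Finset.mem_filter.1 (Finset.mem_coe.1 hB₂)).2
    have h' : B.erase w = B₂.erase w := h
    calc B = insert w (B.erase w) := (Finset.insert_erase hB'.1).symm
      _ = insert w (B₂.erase w) := by rw [h']
      _ = B₂ := Finset.insert_erase hB₂'.1
  have himg : ((Finset.univ : Finset (Finset V)).filter (fun B => ConnFrom N w B)).image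
        (fun B => B.erase w)
      ⊆ (((({w} : Finset V))ᶜ).powerset).filter (fun U => ExplFrom N {w} U) := by
    intro U hU
    rw [Finset.mem_image] at hU
    obtain ⟨B, hB, rfl⟩ := hU
    have hB' := (Finset.mem_filter.1 hB).2
    rw [Finset.mem_filter, Finset.mem_powerset]
    refine ⟨?_, explFrom_of_connFrom N w B hB'⟩
    intro x hx
    rw [Finset.mem_compl, Finset.mem_singleton]
    exact (Finset.mem_erase.1 hx).1
  have hwt : ∀ B ∈ (Finset.univ : Finset (Finset V)).filter (fun B => ConnFrom N w B),
      θ ^ (B.card - 1) * ((1 + θ) ^ (∑ x ∈ B, (N x).card))⁻¹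
        = explWeight N θ {w} (B.erase w) := by
    intro B hB
    have hB' := (Finset.mem_filter.1 hB).2
    unfold explWeight
    have hset : ({w} : Finset V) ∪ B.erase w = B := by
      rw [← Finset.insert_eq, Finset.insert_erase hB'.1]
    rw [hset, Finset.card_erase_of_mem hB'.1, Finset.prod_inv_distrib, Finset.prod_pow_eq_pow_sum]
  calc ∑ B ∈ (Finset.univ : Finset (Finset V)).filter (fun B => ConnFrom N w B),
        θ ^ (B.card - 1) * ((1 + θ) ^ (∑ x ∈ B, (N x).card))⁻¹
      = ∑ B ∈ (Finset.univ : Finset (Finset V)).filter (fun B => ConnFrom N w B),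
          explWeight N θ {w} (B.erase w) := Finset.sum_congr rfl hwt
    _ = ∑ U ∈ ((Finset.univ : Finset (Finset V)).filter (fun B => ConnFrom N w B)).image
          (fun B => B.erase w), explWeight N θ {w} U := by
        rw [Finset.sum_image hinjOn]
    _ ≤ _ := Finset.sum_le_sum_of_subset_of_nonneg himg
          (fun U _ _ => explWeight_nonneg N θ hθ _ U)

/-- **Conflict count.**  The connected sets through `w` with `v` vertices and degree sum `D`
number at most `θ^{-(v-1)} (1+θ)^D`. -/
theorem kraft_conn_card_le (N : V → Finset V) (w : V) (θ : ℝ) (hθ : 0 < θ) (v D : ℕ) :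
    (((Finset.univ : Finset (Finset V)).filter (fun B =>
        ConnFrom N w B ∧ B.card = v ∧ ∑ x ∈ B, (N x).card = D)).card : ℝ) * θ ^ (v - 1)
      ≤ (1 + θ) ^ D := by
  classical
  have hsum := kraft_conn_sum_le_one N w θ hθ
  have hpos : (0 : ℝ) < (1 + θ) ^ D := by positivity
  have hsub : (Finset.univ : Finset (Finset V)).filter (fun B =>
        ConnFrom N w B ∧ B.card = v ∧ ∑ x ∈ B, (N x).card = D)
      ⊆ (Finset.univ : Finset (Finset V)).filter (fun B => ConnFrom N w B) := by
    intro B hB
    rw [Finset.mem_filter] at hB ⊢
    exact ⟨hB.1, hB.2.1⟩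
  have hle : ∑ B ∈ (Finset.univ : Finset (Finset V)).filter (fun B =>
        ConnFrom N w B ∧ B.card = v ∧ ∑ x ∈ B, (N x).card = D),
        θ ^ (B.card - 1) * ((1 + θ) ^ (∑ x ∈ B, (N x).card))⁻¹ ≤ 1 := by
    refine le_trans (Finset.sum_le_sum_of_subset_of_nonneg hsub ?_) hsum
    intro B _ _
    have : (0 : ℝ) < (1 + θ) ^ (∑ x ∈ B, (N x).card) := by positivity
    exact mul_nonneg (pow_nonneg hθ.le _) (inv_pos.2 this).le
  have hconst : ∑ B ∈ (Finset.univ : Finset (Finset V)).filter (fun B =>
        ConnFrom N w B ∧ B.card = v ∧ ∑ x ∈ B, (N x).card = D),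
        θ ^ (B.card - 1) * ((1 + θ) ^ (∑ x ∈ B, (N x).card))⁻¹
      = (((Finset.univ : Finset (Finset V)).filter (fun B =>
        ConnFrom N w B ∧ B.card = v ∧ ∑ x ∈ B, (N x).card = D)).card : ℝ)
          * (θ ^ (v - 1) * ((1 + θ) ^ D)⁻¹) := by
    rw [← nsmul_eq_mul, ← Finset.sum_const]
    apply Finset.sum_congr rfl
    intro B hB
    rw [Finset.mem_filter] at hB
    rw [hB.2.2.1, hB.2.2.2]
  rw [hconst] at hle
  have h2 : (((Finset.univ : Finset (Finset V)).filter (fun B =>
        ConnFrom N w B ∧ B.card = v ∧ ∑ x ∈ B, (N x).card = D)).card : ℝ) * θ ^ (v - 1)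
      = ((((Finset.univ : Finset (Finset V)).filter (fun B =>
        ConnFrom N w B ∧ B.card = v ∧ ∑ x ∈ B, (N x).card = D)).card : ℝ)
          * (θ ^ (v - 1) * ((1 + θ) ^ D)⁻¹)) * (1 + θ) ^ D := by
    field_simp
  rw [h2]
  calc _ ≤ 1 * (1 + θ) ^ D := mul_le_mul_of_nonneg_right hle hpos.le
    _ = (1 + θ) ^ D := one_mul _

end Crest.Agent.Helper77.S0076
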