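import Mathlib
import Crest.Agent.Helper52.PP.Count
import Crest.Agent.Helper52.PP.Perm

/-!
# (FREE): maps of a pattern ONTO a sub-host (helper77; conditional package for row 55)

The thinkers' lemma (FREE), in the non-injective form used for books / sunflowers / wreath
products: for a sub-host `A ⊆ E₀` and ANY pattern `F` (a finite set of unordered pairs on a
finite vertex type `V`), the maps `f : V → Fin n` (not necessarily injective) whose edge image
is exactly `A` number at most `2 n^{|V|} p^{|A|}`:

* `free_maps_le_of_stab` : `#{f : V → Fin n | f(F) = A} ≤ 2 n^{|V|} p^{|A|}`;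
* `free_card_le_of_stab` : hence every injective family `ι : Γ → (V → Fin n)` of such maps
  (e.g. `γ ↦ ψ ∘ γ` for a group `Γ` acting freely on the maps) has `|Γ| ≤ 2 n^{|V|} p^{|A|}`.

Proof: double counting of the pairs `(σ, f)` with `f(F) = σ A`; each `σ` has at least as many
`f` as the identity, each `f` has at most `|Stab A|` permutations `σ`, and `hstab` bounds the
stabiliser.  `hstab` is verbatim the hypothesis of helper52's `dens_of_stab`.
Nothing here proves a spread bound.
-/

set_option autoImplicit false
set_option linter.unusedSectionVars false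
set_option linter.unusedVariables false

namespace Crest.Agent.Helper77.S0076

open Finset Crest.CombinatoricsR.RandomGraph Crest.Agent.Helper52.PP

/-- **(FREE)**: the maps `f : V → Fin n` whose edge image `f(F)` is exactly the sub-host
`A ⊆ E₀` number at most `2 n^{|V|} p^{|A|}`. -/
theorem free_maps_le_of_stab {n : ℕ} (E₀ : Finset (EdgeSlot n)) (p : ℝ) (hp0 : 0 ≤ p)
    (hstab : ∀ A ⊆ E₀, (((Finset.univ.filter (fun σ : Equiv.Perm (Fin n) =>
        A.map (slotPerm σ).toEmbedding = A)).card : ℕ) : ℝ)
          ≤ 2 * (n.factorial : ℝ) * p ^ A.card)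
    (A : Finset (EdgeSlot n)) (hA : A ⊆ E₀)
    {V : Type} [Fintype V] [DecidableEq V] (F : Finset (Sym2 V)) :
    (((Finset.univ.filter (fun f : V → Fin n =>
        F.image (Sym2.map f) = A.image Subtype.val)).card : ℕ) : ℝ)
      ≤ 2 * (n : ℝ) ^ Fintype.card V * p ^ A.card := by
  classical
  obtain ⟨vA, hvA⟩ : ∃ vA : Finset (Sym2 (Fin n)), vA = A.image Subtype.val := ⟨_, rfl⟩
  rw [← hvA]
  set St : Finset (Equiv.Perm (Fin n)) := Finset.univ.filter (fun σ : Equiv.Perm (Fin n) =>
        A.map (slotPerm σ).toEmbedding = A) with hSt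
  set Mset : Finset (V → Fin n) :=
    Finset.univ.filter (fun f : V → Fin n => F.image (Sym2.map f) = vA) with hM
  -- the value image of `σ • A`
  have hval : ∀ σ : Equiv.Perm (Fin n),
      (A.map (slotPerm σ).toEmbedding).image Subtype.val = vA.image (Sym2.map σ) := by
    intro σ
    rw [hvA, Finset.image_image, Finset.map_eq_image, Finset.image_image]
    apply Finset.image_congr
    intro s _
    rfl
  -- a permutation preserving the value image stabilises `A`
  have hstabmem : ∀ τ : Equiv.Perm (Fin n), vA.image (Sym2.map τ) = vA → τ ∈ St := by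
    intro τ h
    rw [hSt, Finset.mem_filter]
    refine ⟨Finset.mem_univ _, ?_⟩
    apply Finset.image_injective Subtype.val_injective
    show (A.map (slotPerm τ).toEmbedding).image Subtype.val = A.image Subtype.val
    rw [hval τ, h, hvA]
  -- count by `σ`
  have h1 : ∀ σ : Equiv.Perm (Fin n), Mset.card ≤ (Finset.univ.filter
      (fun f : V → Fin n => F.image (Sym2.map f) = vA.image (Sym2.map σ))).card := by
    intro σ
    apply Finset.card_le_card_of_injOn (fun f : V → Fin n => (σ : Fin n → Fin n) ∘ f)
    · intro f hf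
      have hf' := (Finset.mem_filter.1 (Finset.mem_coe.1 hf)).2
      rw [Finset.mem_coe, Finset.mem_filter]
      refine ⟨Finset.mem_univ _, ?_⟩
      rw [← hf', Finset.image_image]
      apply Finset.image_congr
      intro e _
      rw [Function.comp_apply, Sym2.map_map]
    · intro f _ f' _ h
      funext v
      exact σ.injective (congrFun h v)
  -- count by `f`
  have h2 : ∀ f : V → Fin n, (Finset.univ.filter (fun σ : Equiv.Perm (Fin n) =>
      F.image (Sym2.map f) = vA.image (Sym2.map σ))).card ≤ St.card := by
    intro f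
    by_cases hne : (Finset.univ.filter (fun σ : Equiv.Perm (Fin n) =>
      F.image (Sym2.map f) = vA.image (Sym2.map σ))).Nonempty
    · obtain ⟨σ₀, hσ₀⟩ := hne
      have hσ₀' : F.image (Sym2.map f) = vA.image (Sym2.map σ₀) := (Finset.mem_filter.1 hσ₀).2
      apply Finset.card_le_card_of_injOn (fun σ : Equiv.Perm (Fin n) => σ₀⁻¹ * σ)
      · intro σ hσ
        have hσ' : F.image (Sym2.map f) = vA.image (Sym2.map σ) :=
          (Finset.mem_filter.1 (Finset.mem_coe.1 hσ)).2
        rw [Finset.mem_coe]
        apply hstabmem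
        have heq : vA.image (Sym2.map σ) = vA.image (Sym2.map σ₀) := hσ'.symm.trans hσ₀'
        have hsplit : vA.image (Sym2.map (σ₀⁻¹ * σ : Equiv.Perm (Fin n)))
            = (vA.image (Sym2.map σ)).image (Sym2.map (σ₀⁻¹ : Equiv.Perm (Fin n))) := by
          rw [Finset.image_image]
          apply Finset.image_congr
          intro e _
          rw [Function.comp_apply, Sym2.map_map]
          rfl
        rw [hsplit, heq, Finset.image_image]
        have hid : Set.EqOn (Sym2.map (σ₀⁻¹ : Equiv.Perm (Fin n)) ∘ Sym2.map σ₀) id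
            (vA : Set (Sym2 (Fin n))) := by
          intro e _
          rw [Function.comp_apply, Sym2.map_map]
          have hcomp : ((σ₀⁻¹ : Equiv.Perm (Fin n)) : Fin n → Fin n) ∘ (σ₀ : Fin n → Fin n)
              = id := by
            funext x
            simp
          rw [hcomp, Sym2.map_id]
        rw [Finset.image_congr hid, Finset.image_id]
      · intro σ _ σ' _ h
        exact mul_left_cancel h
    · rw [Finset.not_nonempty_iff_eq_empty] at hne
      rw [hne, Finset.card_empty]
      exact Nat.zero_le _
  -- double counting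
  have hdc : ∑ σ : Equiv.Perm (Fin n), (Finset.univ.filter
        (fun f : V → Fin n => F.image (Sym2.map f) = vA.image (Sym2.map σ))).card
      = ∑ f : V → Fin n, (Finset.univ.filter (fun σ : Equiv.Perm (Fin n) =>
        F.image (Sym2.map f) = vA.image (Sym2.map σ))).card := by
    simp only [Finset.card_filter]
    exact Finset.sum_comm
  have hL : n.factorial * Mset.card ≤ ∑ σ : Equiv.Perm (Fin n), (Finset.univ.filter
        (fun f : V → Fin n => F.image (Sym2.map f) = vA.image (Sym2.map σ))).card := by
    calc n.factorial * Mset.card = ∑ _σ : Equiv.Perm (Fin n), Mset.card := by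
          rw [Finset.sum_const, Finset.card_univ, Fintype.card_perm, Fintype.card_fin,
            smul_eq_mul]
      _ ≤ _ := Finset.sum_le_sum (fun σ _ => h1 σ)
  have hRt : ∑ f : V → Fin n, (Finset.univ.filter (fun σ : Equiv.Perm (Fin n) =>
        F.image (Sym2.map f) = vA.image (Sym2.map σ))).card
      ≤ n ^ Fintype.card V * St.card := by
    calc _ ≤ ∑ _f : V → Fin n, St.card := Finset.sum_le_sum (fun f _ => h2 f)
      _ = n ^ Fintype.card V * St.card := by
          rw [Finset.sum_const, Finset.card_univ, Fintype.card_fun, Fintype.card_fin,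
            smul_eq_mul]
  have hnat : n.factorial * Mset.card ≤ n ^ Fintype.card V * St.card := by
    calc n.factorial * Mset.card ≤ _ := hL
      _ = _ := hdc
      _ ≤ _ := hRt
  have h3 : ((St.card : ℕ) : ℝ) ≤ 2 * (n.factorial : ℝ) * p ^ A.card := hstab A hA
  have hpos : (0 : ℝ) < (n.factorial : ℝ) := by exact_mod_cast Nat.factorial_pos n
  have hcast : ((n.factorial * Mset.card : ℕ) : ℝ) ≤ ((n ^ Fintype.card V * St.card : ℕ) : ℝ) := by
    exact_mod_cast hnat
  push_cast at hcast
  have h4 : (n.factorial : ℝ) * (Mset.card : ℝ)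
      ≤ (n.factorial : ℝ) * (2 * (n : ℝ) ^ Fintype.card V * p ^ A.card) := by
    calc (n.factorial : ℝ) * (Mset.card : ℝ) ≤ (n : ℝ) ^ Fintype.card V * (St.card : ℝ) := hcast
      _ ≤ (n : ℝ) ^ Fintype.card V * (2 * (n.factorial : ℝ) * p ^ A.card) :=
          mul_le_mul_of_nonneg_left h3 (by positivity)
      _ = (n.factorial : ℝ) * (2 * (n : ℝ) ^ Fintype.card V * p ^ A.card) := by ring
  exact le_of_mul_le_mul_left h4 hpos

/-- **(FREE), family form**: an injective family `ι : Γ → (V → Fin n)` of maps of the pattern
`F` onto the sub-host `A ⊆ E₀` has at most `2 n^{|V|} p^{|A|}` members. -/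
theorem free_card_le_of_stab {n : ℕ} (E₀ : Finset (EdgeSlot n)) (p : ℝ) (hp0 : 0 ≤ p)
    (hstab : ∀ A ⊆ E₀, (((Finset.univ.filter (fun σ : Equiv.Perm (Fin n) =>
        A.map (slotPerm σ).toEmbedding = A)).card : ℕ) : ℝ)
          ≤ 2 * (n.factorial : ℝ) * p ^ A.card)
    (A : Finset (EdgeSlot n)) (hA : A ⊆ E₀)
    {V : Type} [Fintype V] [DecidableEq V] (F : Finset (Sym2 V))
    {Γ : Type} [Fintype Γ] (ι : Γ → V → Fin n) (hι : Function.Injective ι)
    (hmap : ∀ γ, F.image (Sym2.map (ι γ)) = A.image Subtype.val) :
    (Fintype.card Γ : ℝ) ≤ 2 * (n : ℝ) ^ Fintype.card V * p ^ A.card := by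
  classical
  refine le_trans ?_ (free_maps_le_of_stab E₀ p hp0 hstab A hA F)
  have hle : Fintype.card Γ ≤ (Finset.univ.filter (fun f : V → Fin n =>
        F.image (Sym2.map f) = A.image Subtype.val)).card := by
    rw [← Finset.card_univ]
    apply Finset.card_le_card_of_injOn ι
    · intro γ _
      rw [Finset.mem_coe, Finset.mem_filter]
      exact ⟨Finset.mem_univ _, hmap γ⟩
    · intro γ _ γ' _ h
      exact hι h
  exact_mod_cast hle

end Crest.Agent.Helper77.S0076
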