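import Mathlib
import Crest.Agent.Helper77.S0076.FreeMaps

/-!
# (PACK): edge-disjoint packing in map-count form (helper77; conditional package for row 55)

For a pattern `F : Finset (Sym2 V)` and a set `X` of unordered pairs of `Fin n`,
`mapsOnto F X` is the set of ALL maps `f : V → Fin n` whose edge image is exactly `X`.

* `card_mapsOnto_perm` : the count is invariant under a vertex permutation of the target;
* `pack_factorial_le_of_stab` : if `S 0, …, S (M-1) ⊆ E₀` are pairwise disjoint nonempty
  sub-hosts with `e` slots each, and each of them is the edge image of at least `I` maps of the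
  pattern `F`, then `M! · I^M ≤ 2 (n^{|V|} p^e)^M`;
* `pack_le_of_stab` : hence `M · I ≤ 2 e · n^{|V|} p^e`.

This is the packing step (PACK)/(B) of helper68's closure-type packing
(`notes/s0076_helper68_closure.md`), with `I` in the role of `aut(S_τ)`.
Nothing here proves a spread bound.
-/

set_option autoImplicit false
set_option linter.unusedSectionVars false
set_option linter.unusedVariables false

namespace Crest.Agent.Helper77.S0076

open Finset Crest.CombinatoricsR.RandomGraph Crest.Agent.Helper52.PP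

/-- All maps `f : V → Fin n` whose edge image of the pattern `F` is exactly `X`. -/
noncomputable def mapsOnto {n : ℕ} {V : Type} [Fintype V] [DecidableEq V]
    (F : Finset (Sym2 V)) (X : Finset (Sym2 (Fin n))) : Finset (V → Fin n) :=
  Finset.univ.filter (fun f : V → Fin n => F.image (Sym2.map f) = X)

lemma mem_mapsOnto {n : ℕ} {V : Type} [Fintype V] [DecidableEq V]
    (F : Finset (Sym2 V)) (X : Finset (Sym2 (Fin n))) (f : V → Fin n) :
    f ∈ mapsOnto F X ↔ F.image (Sym2.map f) = X := by
  unfold mapsOnto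
  rw [Finset.mem_filter]
  exact ⟨fun h => h.2, fun h => ⟨Finset.mem_univ _, h⟩⟩

lemma card_mapsOnto_perm_le {n : ℕ} {V : Type} [Fintype V] [DecidableEq V]
    (F : Finset (Sym2 V)) (X : Finset (Sym2 (Fin n))) (σ : Equiv.Perm (Fin n)) :
    (mapsOnto F X).card ≤ (mapsOnto F (X.image (Sym2.map σ))).card := by
  classical
  apply Finset.card_le_card_of_injOn (fun f : V → Fin n => (σ : Fin n → Fin n) ∘ f)
  · intro f hf
    have hf' := (mem_mapsOnto F X f).1 (Finset.mem_coe.1 hf)
    rw [Finset.mem_coe, mem_mapsOnto, ← hf', Finset.image_image]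
    apply Finset.image_congr
    intro e _
    rw [Function.comp_apply, Sym2.map_map]
  · intro f _ f' _ h
    funext v
    exact σ.injective (congrFun h v)

/-- The number of maps of `F` onto `X` is invariant under a vertex permutation of `Fin n`. -/
lemma card_mapsOnto_perm {n : ℕ} {V : Type} [Fintype V] [DecidableEq V]
    (F : Finset (Sym2 V)) (X : Finset (Sym2 (Fin n))) (σ : Equiv.Perm (Fin n)) :
    (mapsOnto F (X.image (Sym2.map σ))).card = (mapsOnto F X).card := by
  classical
  apply le_antisymm
  · have h := card_mapsOnto_perm_le F (X.image (Sym2.map σ)) σ⁻¹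
    have hback : (X.image (Sym2.map σ)).image (Sym2.map (σ⁻¹ : Equiv.Perm (Fin n))) = X := by
      rw [Finset.image_image]
      have hid : Set.EqOn (Sym2.map (σ⁻¹ : Equiv.Perm (Fin n)) ∘ Sym2.map σ) id
          (X : Set (Sym2 (Fin n))) := by
        intro e _
        rw [Function.comp_apply, Sym2.map_map]
        have hcomp : ((σ⁻¹ : Equiv.Perm (Fin n)) : Fin n → Fin n) ∘ (σ : Fin n → Fin n) = id := by
          funext x
          simp
        rw [hcomp, Sym2.map_id]
      rw [Finset.image_congr hid, Finset.image_id]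
    rw [hback] at h
    exact h
  · exact card_mapsOnto_perm_le F X σ

/-- **(PACK), factorial form.** -/
theorem pack_factorial_le_of_stab {n : ℕ} (E₀ : Finset (EdgeSlot n)) (p : ℝ) (hp0 : 0 ≤ p)
    (hstab : ∀ A ⊆ E₀, (((Finset.univ.filter (fun σ : Equiv.Perm (Fin n) =>
        A.map (slotPerm σ).toEmbedding = A)).card : ℕ) : ℝ)
          ≤ 2 * (n.factorial : ℝ) * p ^ A.card)
    {V : Type} [Fintype V] [DecidableEq V] (F : Finset (Sym2 V))
    (M : ℕ) (S : Fin M → Finset (EdgeSlot n)) (hS : ∀ i, S i ⊆ E₀)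
    (hdisj : ∀ i j, i ≠ j → Disjoint (S i) (S j)) (hne : ∀ i, (S i).Nonempty)
    (e : ℕ) (hcard : ∀ i, (S i).card = e)
    (I : ℕ) (hI : ∀ i, I ≤ (mapsOnto F ((S i).image Subtype.val)).card) :
    (M.factorial : ℝ) * (I : ℝ) ^ M ≤ 2 * ((n : ℝ) ^ Fintype.card V * p ^ e) ^ M := by
  classical
  -- the union sub-host
  set A : Finset (EdgeSlot n) := Finset.univ.biUnion S with hAdef
  have hAE : A ⊆ E₀ := by
    intro s hs
    rw [hAdef, Finset.mem_biUnion] at hs
    obtain ⟨i, -, hi⟩ := hs
    exact hS i hi
  have hAcard : A.card = M * e := by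
    rw [hAdef, Finset.card_biUnion (fun i _ j _ hij => hdisj i j hij)]
    rw [Finset.sum_congr rfl (fun i _ => hcard i), Finset.sum_const, Finset.card_univ,
      Fintype.card_fin, smul_eq_mul]
  -- the pattern: `M` disjoint copies of `F`
  set F' : Finset (Sym2 (Fin M × V)) :=
    Finset.univ.biUnion (fun i : Fin M => F.image (Sym2.map (fun x : V => (i, x)))) with hF'
  -- `S` is injective
  have hSinj : Function.Injective S := by
    intro i j hij
    by_contra hne'
    have hd := hdisj i j hne'
    rw [hij] at hd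
    obtain ⟨s, hs⟩ := hne j
    exact (Finset.disjoint_left.1 hd hs) hs
  -- the family of maps
  set P : Finset (Equiv.Perm (Fin M) × (Fin M → (V → Fin n))) :=
    (Finset.univ : Finset (Equiv.Perm (Fin M))) ×ˢ
      Fintype.piFinset (fun i : Fin M => mapsOnto F ((S i).image Subtype.val)) with hP
  have hPcard : P.card = M.factorial *
      ∏ i : Fin M, (mapsOnto F ((S i).image Subtype.val)).card := by
    rw [hP, Finset.card_product, Finset.card_univ, Fintype.card_perm, Fintype.card_fin,
      Fintype.card_piFinset]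
  have hprod : I ^ M ≤ ∏ i : Fin M, (mapsOnto F ((S i).image Subtype.val)).card := by
    calc I ^ M = ∏ _i : Fin M, I := by
          rw [Finset.prod_const, Finset.card_univ, Fintype.card_fin]
      _ ≤ _ := Finset.prod_le_prod' (fun i _ => hI i)
  -- the injection into the maps onto `A`
  have hinj : P.card ≤ (Finset.univ.filter (fun f : Fin M × V → Fin n =>
        F'.image (Sym2.map f) = A.image Subtype.val)).card := by
    apply Finset.card_le_card_of_injOn
      (fun q : Equiv.Perm (Fin M) × (Fin M → (V → Fin n)) =>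
        fun y : Fin M × V => q.2 (q.1 y.1) y.2)
    · rintro ⟨π, f⟩ hq
      have hq' := Finset.mem_product.1 (Finset.mem_coe.1 hq)
      have hf : ∀ i, F.image (Sym2.map (f i)) = (S i).image Subtype.val := by
        intro i
        exact (mem_mapsOnto F _ (f i)).1 ((Fintype.mem_piFinset.1 hq'.2) i)
      rw [Finset.mem_coe, Finset.mem_filter]
      refine ⟨Finset.mem_univ _, ?_⟩
      show F'.image (Sym2.map (fun y : Fin M × V => f (π y.1) y.2)) = A.image Subtype.val
      rw [hF', hAdef, Finset.biUnion_image, Finset.biUnion_image]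
      ext z
      simp only [Finset.mem_biUnion, Finset.mem_univ, true_and]
      constructor
      · rintro ⟨i, hz⟩
        refine ⟨π i, ?_⟩
        rw [← hf (π i)]
        rw [Finset.image_image] at hz
        rw [Finset.mem_image] at hz ⊢
        obtain ⟨e0, he0, rfl⟩ := hz
        refine ⟨e0, he0, ?_⟩
        rw [Function.comp_apply, Sym2.map_map]
        rfl
      · rintro ⟨j, hz⟩
        refine ⟨π.symm j, ?_⟩
        rw [← hf j] at hz
        rw [Finset.image_image]
        rw [Finset.mem_image] at hz ⊢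
        obtain ⟨e0, he0, rfl⟩ := hz
        refine ⟨e0, he0, ?_⟩
        rw [Function.comp_apply, Sym2.map_map]
        have : (fun y : Fin M × V => f (π y.1) y.2) ∘ (fun x : V => (π.symm j, x)) = f j := by
          funext x
          simp
        rw [this]
    · rintro ⟨π, f⟩ hq ⟨π', f'⟩ hq' h
      have hq1 := Finset.mem_product.1 (Finset.mem_coe.1 hq)
      have hq2 := Finset.mem_product.1 (Finset.mem_coe.1 hq')
      have hf : ∀ i, F.image (Sym2.map (f i)) = (S i).image Subtype.val := by
        intro i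
        exact (mem_mapsOnto F _ (f i)).1 ((Fintype.mem_piFinset.1 hq1.2) i)
      have hf' : ∀ i, F.image (Sym2.map (f' i)) = (S i).image Subtype.val := by
        intro i
        exact (mem_mapsOnto F _ (f' i)).1 ((Fintype.mem_piFinset.1 hq2.2) i)
      have hfun : ∀ i : Fin M, f (π i) = f' (π' i) := by
        intro i
        funext x
        exact congrFun h (i, x)
      have hπ : π = π' := by
        apply Equiv.ext
        intro i
        apply hSinj
        apply Finset.image_injective Subtype.val_injective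
        show (S (π i)).image Subtype.val = (S (π' i)).image Subtype.val
        rw [← hf (π i), ← hf' (π' i), hfun i]
      subst hπ
      have hff : f = f' := by
        funext j
        have := hfun (π.symm j)
        rwa [Equiv.apply_symm_apply] at this
      rw [hff]
  have hfree := free_maps_le_of_stab E₀ p hp0 hstab A hAE F'
  have hnat : M.factorial * I ^ M ≤ (Finset.univ.filter (fun f : Fin M × V → Fin n =>
        F'.image (Sym2.map f) = A.image Subtype.val)).card := by
    calc M.factorial * I ^ M ≤ M.factorial *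
          ∏ i : Fin M, (mapsOnto F ((S i).image Subtype.val)).card :=
          Nat.mul_le_mul_left _ hprod
      _ = P.card := hPcard.symm
      _ ≤ _ := hinj
  have hcast : ((M.factorial * I ^ M : ℕ) : ℝ)
      ≤ 2 * (n : ℝ) ^ Fintype.card (Fin M × V) * p ^ A.card :=
    le_trans (by exact_mod_cast hnat) hfree
  push_cast at hcast
  rw [Fintype.card_prod, Fintype.card_fin, hAcard] at hcast
  calc (M.factorial : ℝ) * (I : ℝ) ^ M ≤ 2 * (n : ℝ) ^ (M * Fintype.card V) * p ^ (M * e) := hcast
    _ = 2 * ((n : ℝ) ^ Fintype.card V * p ^ e) ^ M := by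
        rw [mul_pow, ← pow_mul, ← pow_mul, mul_comm (Fintype.card V) M, mul_comm e M]
        ring

/-- **(PACK).**  `M · I ≤ 2 e · n^{|V|} p^e`. -/
theorem pack_le_of_stab {n : ℕ} (E₀ : Finset (EdgeSlot n)) (p : ℝ) (hp0 : 0 ≤ p)
    (hstab : ∀ A ⊆ E₀, (((Finset.univ.filter (fun σ : Equiv.Perm (Fin n) =>
        A.map (slotPerm σ).toEmbedding = A)).card : ℕ) : ℝ)
          ≤ 2 * (n.factorial : ℝ) * p ^ A.card)
    {V : Type} [Fintype V] [DecidableEq V] (F : Finset (Sym2 V))
    (M : ℕ) (S : Fin M → Finset (EdgeSlot n)) (hS : ∀ i, S i ⊆ E₀)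
    (hdisj : ∀ i j, i ≠ j → Disjoint (S i) (S j)) (hne : ∀ i, (S i).Nonempty)
    (e : ℕ) (hcard : ∀ i, (S i).card = e)
    (I : ℕ) (hI : ∀ i, I ≤ (mapsOnto F ((S i).image Subtype.val)).card) :
    (M : ℝ) * (I : ℝ) ≤ 2 * Real.exp 1 * ((n : ℝ) ^ Fintype.card V * p ^ e) := by
  classical
  have hfac := pack_factorial_le_of_stab E₀ p hp0 hstab F M S hS hdisj hne e hcard I hI
  set X : ℝ := (n : ℝ) ^ Fintype.card V * p ^ e with hX
  have hX0 : 0 ≤ X := by positivity
  rcases Nat.eq_zero_or_pos M with hM | hM
  · subst hM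
    simp only [Nat.cast_zero, zero_mul]
    positivity
  -- `M^M ≤ e^M M!`
  have hexp : (M : ℝ) ^ M / (M.factorial : ℝ) ≤ Real.exp (M : ℝ) :=
    Real.pow_div_factorial_le_exp (M : ℝ) (Nat.cast_nonneg M) M
  have hfpos : (0 : ℝ) < (M.factorial : ℝ) := by exact_mod_cast Nat.factorial_pos M
  have hMM : (M : ℝ) ^ M ≤ Real.exp (M : ℝ) * (M.factorial : ℝ) := by
    rwa [div_le_iff₀ hfpos] at hexp
  have hexpM : Real.exp (M : ℝ) = Real.exp 1 ^ M := by
    rw [← Real.exp_nat_mul, mul_one]
  have hI0 : (0 : ℝ) ≤ (I : ℝ) := Nat.cast_nonneg I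
  have hpow : ((M : ℝ) * (I : ℝ)) ^ M ≤ (2 * Real.exp 1 * X) ^ M := by
    calc ((M : ℝ) * (I : ℝ)) ^ M = (M : ℝ) ^ M * (I : ℝ) ^ M := mul_pow _ _ _
      _ ≤ (Real.exp (M : ℝ) * (M.factorial : ℝ)) * (I : ℝ) ^ M :=
          mul_le_mul_of_nonneg_right hMM (pow_nonneg hI0 M)
      _ = Real.exp 1 ^ M * ((M.factorial : ℝ) * (I : ℝ) ^ M) := by rw [hexpM]; ring
      _ ≤ Real.exp 1 ^ M * (2 * X ^ M) :=
          mul_le_mul_of_nonneg_left hfac (by positivity)
      _ ≤ Real.exp 1 ^ M * (2 ^ M * X ^ M) := by
          apply mul_le_mul_of_nonneg_left _ (by positivity)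
          apply mul_le_mul_of_nonneg_right _ (pow_nonneg hX0 M)
          calc (2 : ℝ) = 2 ^ 1 := (pow_one 2).symm
            _ ≤ 2 ^ M := pow_le_pow_right₀ (by norm_num) hM
      _ = (2 * Real.exp 1 * X) ^ M := by rw [mul_pow, mul_pow]; ring
  have hne0 : M ≠ 0 := Nat.pos_iff_ne_zero.1 hM
  exact le_of_pow_le_pow_left₀ hne0 (by positivity) hpow

end Crest.Agent.Helper77.S0076
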