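import Mathlib
import Crest.Agent.Helper77.S0076.ClosureDefs
import Crest.Agent.Helper77.S0076.Pack

/-!
# The closure pattern and its maps onto a star closure (helper77; conditional, row 55)

For multiplicities `m : Finset (Fin n) → ℕ` and extra edges `E'` the closure pattern has vertex
type `PV T m = vset T ⊕ Σ N, Fin (m N)` and edge set `patE T E' m` (the slots of `T ∪ E'` plus,
for every twin `⟨N, j⟩`, the edges to the vertices of `N`).  For an embedding `φ` whose outside
classes have the cardinalities `m`, every labelling `β` of the outside classes gives an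
injective map `clMap T m φ β : PV T m → Fin n` whose edge image is exactly the star closure of
`φ(vset T)` (`image_patE_clMap`).

Nothing here proves a spread bound.
-/

set_option autoImplicit false
set_option linter.unusedSectionVars false
set_option linter.unusedVariables false

namespace Crest.Agent.Helper77.S0076

open Finset Crest.CombinatoricsR.RandomGraph Crest.Agent.Helper52.PP
open scoped Classical

variable {n : ℕ}

/-- Vertex type of the closure pattern. -/
abbrev PV (T : Finset (EdgeSlot n)) (m : Finset (Fin n) → ℕ) : Type :=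
  {x : Fin n // x ∈ vset T} ⊕ (Σ N : Finset (Fin n), Fin (m N))

/-- Edge set of the closure pattern. -/
noncomputable def patE (T E' : Finset (EdgeSlot n)) (m : Finset (Fin n) → ℕ) :
    Finset (Sym2 (PV T m)) :=
  ((Finset.univ : Finset (Sym2 {x : Fin n // x ∈ vset T})).filter
      (fun z => Sym2.map Subtype.val z ∈ (T ∪ E').image Subtype.val)).image (Sym2.map Sum.inl)
  ∪ (Finset.univ : Finset (Σ N : Finset (Fin n), Fin (m N))).biUnion
      (fun q => ((Finset.univ : Finset {x : Fin n // x ∈ vset T}).filter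
        (fun x => x.1 ∈ q.1)).image (fun x => s(Sum.inl x, Sum.inr q)))

/-- The map of the closure pattern attached to an embedding `φ` and a labelling `β`. -/
def clMap (T : Finset (EdgeSlot n)) (m : Finset (Fin n) → ℕ) (φ : Fin n → Fin n)
    (β : (Σ N : Finset (Fin n), Fin (m N)) → Fin n) : PV T m → Fin n :=
  Sum.elim (fun x => φ x.1) β

lemma clMap_injective (E₀ T : Finset (EdgeSlot n)) (m : Finset (Fin n) → ℕ)
    (φ : Fin n → Fin n) (hφ : φ ∈ embs E₀ T)
    (β : (Σ N : Finset (Fin n), Fin (m N)) → Fin n)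
    (hβ : ∀ q, β q ∈ outCls E₀ T φ q.1) (hβinj : Function.Injective β) :
    Function.Injective (clMap T m φ β) := by
  have hφ' := (mem_embs E₀ T φ).1 hφ
  rintro (x | q) (y | q') h
  · simp only [clMap, Sum.elim_inl] at h
    have := hφ'.2.1 (Finset.mem_coe.2 x.2) (Finset.mem_coe.2 y.2) h
    rw [Subtype.ext this]
  · exfalso
    simp only [clMap, Sum.elim_inl, Sum.elim_inr] at h
    have h1 := ((mem_outCls E₀ T φ q'.1 (β q')).1 (hβ q')).1
    apply h1
    rw [← h]
    exact Finset.mem_image_of_mem φ x.2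
  · exfalso
    simp only [clMap, Sum.elim_inl, Sum.elim_inr] at h
    have h1 := ((mem_outCls E₀ T φ q.1 (β q)).1 (hβ q)).1
    apply h1
    rw [h]
    exact Finset.mem_image_of_mem φ y.2
  · simp only [clMap, Sum.elim_inr] at h
    rw [hβinj h]

/-- The edge image of the closure pattern under `clMap` is the star closure. -/
lemma image_patE_clMap (E₀ T : Finset (EdgeSlot n)) (m : Finset (Fin n) → ℕ)
    (φ : Fin n → Fin n) (hφ : φ ∈ embs E₀ T)
    (β : (Σ N : Finset (Fin n), Fin (m N)) → Fin n)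
    (hβ : ∀ q, β q ∈ outCls E₀ T φ q.1)
    (hsurj : ∀ N, ∀ u ∈ outCls E₀ T φ N, ∃ j, β ⟨N, j⟩ = u) :
    (patE T (exEdges E₀ T φ) m).image (Sym2.map (clMap T m φ β))
      = (starCl E₀ ((vset T).image φ)).image Subtype.val := by
  have hφ' := (mem_embs E₀ T φ).1 hφ
  ext z
  rw [Finset.mem_image, Finset.mem_image]
  constructor
  · rintro ⟨z', hz', rfl⟩
    unfold patE at hz'
    rcases Finset.mem_union.1 hz' with h1 | h2
    · rw [Finset.mem_image] at h1
      obtain ⟨z0, hz0, rfl⟩ := h1
      rw [Finset.mem_filter, Finset.mem_image] at hz0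
      obtain ⟨-, t, ht, htz⟩ := hz0
      have himg : Sym2.map (clMap T m φ β) (Sym2.map Sum.inl z0) = Sym2.map φ t.1 := by
        rw [htz, Sym2.map_map, Sym2.map_map]
        rfl
      have hs : ∃ s ∈ E₀, s.1 = Sym2.map φ t.1 := by
        rcases Finset.mem_union.1 ht with hT | hE
        · exact hφ'.2.2 t hT
        · exact ((mem_exEdges E₀ T φ t).1 hE).2.2
      obtain ⟨s, hsE, hs⟩ := hs
      refine ⟨s, ?_, by rw [himg, hs]⟩
      rw [mem_starCl]
      refine ⟨hsE, ?_⟩
      induction z0 using Sym2.ind with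
      | _ a b =>
        refine ⟨φ a.1, Finset.mem_image_of_mem φ a.2, ?_⟩
        rw [hs, htz, Sym2.map_mk, Sym2.map_mk]
        exact Sym2.mem_mk_left _ _
    · rw [Finset.mem_biUnion] at h2
      obtain ⟨q, -, hq⟩ := h2
      rw [Finset.mem_image] at hq
      obtain ⟨x, hx, rfl⟩ := hq
      rw [Finset.mem_filter] at hx
      have hout := (mem_outCls E₀ T φ q.1 (β q)).1 (hβ q)
      have hadj : hAdj E₀ (φ x.1) (β q) := (hout.2.2.2 x.1 x.2).2 hx.2
      obtain ⟨s, hsE, hs⟩ := hadj
      refine ⟨s, ?_, ?_⟩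
      · rw [mem_starCl]
        refine ⟨hsE, φ x.1, Finset.mem_image_of_mem φ x.2, ?_⟩
        rw [hs]
        exact Sym2.mem_mk_left _ _
      · rw [hs, Sym2.map_mk]
        rfl
  · rintro ⟨s, hs, rfl⟩
    rw [mem_starCl] at hs
    obtain ⟨hsE, a', ha'B, ha's⟩ := hs
    rw [Finset.mem_image] at ha'B
    obtain ⟨a, ha, rfl⟩ := ha'B
    obtain ⟨b', hb'⟩ := Sym2.mem_iff_exists.1 ha's
    by_cases hb'B : b' ∈ (vset T).image φ
    · rw [Finset.mem_image] at hb'B
      obtain ⟨b, hb, rfl⟩ := hb'B
      have hab : a ≠ b := by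
        intro h
        apply s.2
        rw [hb', h]
        exact Sym2.mk_isDiag_iff.2 rfl
      have hnd : ¬ (s(a, b) : Sym2 (Fin n)).IsDiag := by
        rw [Sym2.mk_isDiag_iff]
        exact hab
      have ht : (⟨s(a, b), hnd⟩ : EdgeSlot n) ∈ T ∪ exEdges E₀ T φ := by
        by_cases hT : (⟨s(a, b), hnd⟩ : EdgeSlot n) ∈ T
        · exact Finset.mem_union_left _ hT
        · apply Finset.mem_union_right
          rw [mem_exEdges]
          refine ⟨hT, ?_, s, hsE, ?_⟩
          · intro x hx
            rcases Sym2.mem_iff.1 hx with rfl | rfl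
            · exact ha
            · exact hb
          · rw [hb', Sym2.map_mk]
      refine ⟨Sym2.map Sum.inl (s(⟨a, ha⟩, ⟨b, hb⟩) : Sym2 {x : Fin n // x ∈ vset T}), ?_, ?_⟩
      · unfold patE
        apply Finset.mem_union_left
        apply Finset.mem_image_of_mem
        rw [Finset.mem_filter, Finset.mem_image]
        exact ⟨Finset.mem_univ _, ⟨s(a, b), hnd⟩, ht, by rw [Sym2.map_mk]⟩
      · rw [Sym2.map_mk, Sym2.map_mk, hb']
        rfl
    · -- `b'` is an outside vertex
      set N : Finset (Fin n) := (vset T).filter (fun x => hAdj E₀ (φ x) b') with hN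
      have haN : a ∈ N := by
        rw [hN, Finset.mem_filter]
        exact ⟨ha, s, hsE, hb'⟩
      have hout : b' ∈ outCls E₀ T φ N := by
        rw [mem_outCls]
        refine ⟨hb'B, Finset.filter_subset _ _, ⟨a, haN⟩, ?_⟩
        intro x hx
        rw [hN, Finset.mem_filter]
        exact ⟨fun h => ⟨hx, h⟩, fun h => h.2⟩
      obtain ⟨j, hj⟩ := hsurj N b' hout
      refine ⟨s(Sum.inl ⟨a, ha⟩, Sum.inr ⟨N, j⟩), ?_, ?_⟩
      · unfold patE
        apply Finset.mem_union_right
        rw [Finset.mem_biUnion]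
        refine ⟨⟨N, j⟩, Finset.mem_univ _, ?_⟩
        rw [Finset.mem_image]
        exact ⟨⟨a, ha⟩, Finset.mem_filter.2 ⟨Finset.mem_univ _, haN⟩, rfl⟩
      · rw [Sym2.map_mk, hb']
        simp only [clMap, Sum.elim_inl, Sum.elim_inr]
        rw [hj]

/-- The outside classes of different `N` are disjoint. -/
lemma outCls_eq_of_mem (E₀ T : Finset (EdgeSlot n)) (φ : Fin n → Fin n) (N N' : Finset (Fin n))
    (u : Fin n) (h : u ∈ outCls E₀ T φ N) (h' : u ∈ outCls E₀ T φ N') : N = N' := by
  rw [mem_outCls] at h h'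
  ext x
  constructor
  · intro hx
    exact (h'.2.2.2 x (h.2.1 hx)).1 ((h.2.2.2 x (h.2.1 hx)).2 hx)
  · intro hx
    exact (h.2.2.2 x (h'.2.1 hx)).1 ((h'.2.2.2 x (h'.2.1 hx)).2 hx)

/-- A labelling of the outside classes. -/
lemma exists_beta (E₀ T : Finset (EdgeSlot n)) (φ : Fin n → Fin n) (m : Finset (Fin n) → ℕ)
    (hm : ∀ N, (outCls E₀ T φ N).card = m N) :
    ∃ β : (Σ N : Finset (Fin n), Fin (m N)) → Fin n,
      (∀ q, β q ∈ outCls E₀ T φ q.1) ∧ Function.Injective β ∧
        ∀ N, ∀ u ∈ outCls E₀ T φ N, ∃ j, β ⟨N, j⟩ = u := by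
  let e : ∀ N : Finset (Fin n), {u // u ∈ outCls E₀ T φ N} ≃ Fin (m N) :=
    fun N => Finset.equivFinOfCardEq (hm N)
  refine ⟨fun q => ((e q.1).symm q.2).1, ?_, ?_, ?_⟩
  · intro q
    exact ((e q.1).symm q.2).2
  · rintro ⟨N, j⟩ ⟨N', j'⟩ h
    have h' : ((e N).symm j).1 = ((e N').symm j').1 := h
    have hN : N = N' := by
      apply outCls_eq_of_mem E₀ T φ N N' ((e N).symm j).1 ((e N).symm j).2
      rw [h']
      exact ((e N').symm j').2
    subst hN
    have : (e N).symm j = (e N).symm j' := Subtype.ext h'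
    rw [(e N).symm.injective this]
  · intro N u hu
    refine ⟨e N ⟨u, hu⟩, ?_⟩
    show ((e N).symm (e N ⟨u, hu⟩)).1 = u
    rw [Equiv.symm_apply_apply]

end Crest.Agent.Helper77.S0076
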