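import Mathlib
import Crest.Agent.Helper77.S0076.ClosureMaps

/-!
# Orbit count and invariance for star closures (helper77; conditional, row 55)

* `orbit_count_le`     : (A) — the embeddings with given data `(E', m)` and given closure `S`,
  times `∏_N (m N)!`, are at most the number of maps of the closure pattern onto `S`;
* `card_mapsOnto_closure_eq` : two embeddings with the same data have closures with the same
  number of maps of the closure pattern onto them;
* `card_starCl_eq_card_patE` : the closure has as many slots as the closure pattern has edges.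

Nothing here proves a spread bound.
-/

set_option autoImplicit false
set_option linter.unusedSectionVars false
set_option linter.unusedVariables false

namespace Crest.Agent.Helper77.S0076

open Finset Crest.CombinatoricsR.RandomGraph Crest.Agent.Helper52.PP
open scoped Classical

variable {n : ℕ}

/-- Two injective maps into `Fin n` differ by a permutation of `Fin n`. -/
lemma exists_perm_comp {V : Type} (f f' : V → Fin n) (hf : Function.Injective f)
    (hf' : Function.Injective f') : ∃ σ : Equiv.Perm (Fin n), ∀ x, σ (f x) = f' x := by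
  let e : {y // y ∈ Set.range f} ≃ {y // y ∈ Set.range f'} :=
    (Equiv.ofInjective f hf).symm.trans (Equiv.ofInjective f' hf')
  refine ⟨e.extendSubtype, fun x => ?_⟩
  rw [Equiv.extendSubtype_apply_of_mem e (f x) ⟨x, rfl⟩]
  show ((Equiv.ofInjective f' hf') ((Equiv.ofInjective f hf).symm ⟨f x, ⟨x, rfl⟩⟩)).1 = f' x
  rw [Equiv.ofInjective_symm_apply]
  rfl

/-- **(A) Orbit count.** -/
theorem orbit_count_le (E₀ T : Finset (EdgeSlot n)) (E' : Finset (EdgeSlot n))
    (m : Finset (Fin n) → ℕ) (S : Finset (EdgeSlot n)) :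
    ((embs E₀ T).filter (fun φ => exEdges E₀ T φ = E' ∧
        (∀ N, (outCls E₀ T φ N).card = m N) ∧
        starCl E₀ ((vset T).image φ) = S)).card * ∏ N : Finset (Fin n), (m N).factorial
      ≤ (mapsOnto (patE T E' m) (S.image Subtype.val)).card := by
  set Z : Finset (Fin n → Fin n) := (embs E₀ T).filter (fun φ => exEdges E₀ T φ = E' ∧
        (∀ N, (outCls E₀ T φ N).card = m N) ∧
        starCl E₀ ((vset T).image φ) = S) with hZ
  have hZmem : ∀ φ ∈ Z, φ ∈ embs E₀ T ∧ exEdges E₀ T φ = E' ∧
      (∀ N, (outCls E₀ T φ N).card = m N) ∧ starCl E₀ ((vset T).image φ) = S := by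
    intro φ hφ
    rw [hZ, Finset.mem_filter] at hφ
    exact hφ
  -- a labelling for every member of `Z`
  have hex : ∀ φ : {φ // φ ∈ Z}, ∃ β : (Σ N : Finset (Fin n), Fin (m N)) → Fin n,
      (∀ q, β q ∈ outCls E₀ T φ.1 q.1) ∧ Function.Injective β ∧
        ∀ N, ∀ u ∈ outCls E₀ T φ.1 N, ∃ j, β ⟨N, j⟩ = u :=
    fun φ => exists_beta E₀ T φ.1 m (hZmem φ.1 φ.2).2.2.1
  choose β hβmem hβinj hβsurj using hex
  -- the index set
  have hidx : (Z.attach ×ˢ (Finset.univ :
      Finset (∀ N : Finset (Fin n), Equiv.Perm (Fin (m N))))).card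
        = Z.card * ∏ N : Finset (Fin n), (m N).factorial := by
    rw [Finset.card_product, Finset.card_attach, Finset.card_univ, Fintype.card_pi]
    congr 1
    apply Finset.prod_congr rfl
    intro N _
    rw [Fintype.card_perm, Fintype.card_fin]
  rw [← hidx]
  apply Finset.card_le_card_of_injOn
    (fun a : {φ // φ ∈ Z} × (∀ N : Finset (Fin n), Equiv.Perm (Fin (m N))) =>
      clMap T m a.1.1 (fun q => β a.1 ⟨q.1, a.2 q.1 q.2⟩))
  · rintro ⟨φ, ρ⟩ -
    have hφ := hZmem φ.1 φ.2
    rw [Finset.mem_coe, mem_mapsOnto]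
    have himg := image_patE_clMap E₀ T m φ.1 hφ.1 (fun q => β φ ⟨q.1, ρ q.1 q.2⟩)
      (fun q => hβmem φ ⟨q.1, ρ q.1 q.2⟩)
      (fun N u hu => by
        obtain ⟨j₀, hj₀⟩ := hβsurj φ N u hu
        refine ⟨(ρ N).symm j₀, ?_⟩
        show β φ ⟨N, ρ N ((ρ N).symm j₀)⟩ = u
        rw [Equiv.apply_symm_apply]
        exact hj₀)
    rw [hφ.2.1, hφ.2.2.2] at himg
    exact himg
  · rintro ⟨φ, ρ⟩ - ⟨φ', ρ'⟩ - h
    have hφ := hZmem φ.1 φ.2
    have hφ' := hZmem φ'.1 φ'.2
    have he := (mem_embs E₀ T φ.1).1 hφ.1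
    have he' := (mem_embs E₀ T φ'.1).1 hφ'.1
    have h' : clMap T m φ.1 (fun q => β φ ⟨q.1, ρ q.1 q.2⟩)
        = clMap T m φ'.1 (fun q => β φ' ⟨q.1, ρ' q.1 q.2⟩) := h
    have hφeq : φ.1 = φ'.1 := by
      funext x
      by_cases hx : x ∈ vset T
      · have := congrFun h' (Sum.inl ⟨x, hx⟩)
        simpa only [clMap, Sum.elim_inl] using this
      · rw [he.1 x hx, he'.1 x hx]
    have hφeq' : φ = φ' := Subtype.ext hφeq
    subst hφeq'
    have hρ : ρ = ρ' := by
      funext N
      apply Equiv.ext
      intro j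
      have h1 := congrFun h' (Sum.inr ⟨N, j⟩)
      simp only [clMap, Sum.elim_inr] at h1
      have h2 := hβinj φ h1
      exact eq_of_heq (Sigma.mk.inj_iff.1 h2).2
    rw [hρ]

/-- The closure has as many slots as the closure pattern has edges. -/
theorem card_starCl_eq_card_patE (E₀ T : Finset (EdgeSlot n)) (φ : Fin n → Fin n)
    (hφ : φ ∈ embs E₀ T) (m : Finset (Fin n) → ℕ)
    (hm : ∀ N, (outCls E₀ T φ N).card = m N) :
    (starCl E₀ ((vset T).image φ)).card = (patE T (exEdges E₀ T φ) m).card := by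
  obtain ⟨β, hβmem, hβinj, hβsurj⟩ := exists_beta E₀ T φ m hm
  have himg := image_patE_clMap E₀ T m φ hφ β hβmem hβsurj
  have hinj := clMap_injective E₀ T m φ hφ β hβmem hβinj
  have h1 : ((patE T (exEdges E₀ T φ) m).image (Sym2.map (clMap T m φ β))).card
      = (patE T (exEdges E₀ T φ) m).card :=
    Finset.card_image_of_injective _ (Sym2.map.injective hinj)
  have h2 : ((starCl E₀ ((vset T).image φ)).image Subtype.val).card
      = (starCl E₀ ((vset T).image φ)).card :=
    Finset.card_image_of_injective _ Subtype.val_injective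
  rw [← h2, ← himg, h1]

/-- Embeddings with the same data have closures with the same number of pattern maps. -/
theorem card_mapsOnto_closure_eq (E₀ T : Finset (EdgeSlot n)) (φ φ' : Fin n → Fin n)
    (hφ : φ ∈ embs E₀ T) (hφ' : φ' ∈ embs E₀ T) (m : Finset (Fin n) → ℕ)
    (hm : ∀ N, (outCls E₀ T φ N).card = m N) (hm' : ∀ N, (outCls E₀ T φ' N).card = m N)
    (hE : exEdges E₀ T φ' = exEdges E₀ T φ) :
    (mapsOnto (patE T (exEdges E₀ T φ) m)
        ((starCl E₀ ((vset T).image φ')).image Subtype.val)).card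
      = (mapsOnto (patE T (exEdges E₀ T φ) m)
        ((starCl E₀ ((vset T).image φ)).image Subtype.val)).card := by
  obtain ⟨β, hβmem, hβinj, hβsurj⟩ := exists_beta E₀ T φ m hm
  obtain ⟨β', hβmem', hβinj', hβsurj'⟩ := exists_beta E₀ T φ' m hm'
  have himg := image_patE_clMap E₀ T m φ hφ β hβmem hβsurj
  have himg' := image_patE_clMap E₀ T m φ' hφ' β' hβmem' hβsurj'
  rw [hE] at himg'
  have hinj := clMap_injective E₀ T m φ hφ β hβmem hβinj
  have hinj' := clMap_injective E₀ T m φ' hφ' β' hβmem' hβinj'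
  obtain ⟨σ, hσ⟩ := exists_perm_comp (clMap T m φ β) (clMap T m φ' β') hinj hinj'
  have hcomp : (σ : Fin n → Fin n) ∘ clMap T m φ β = clMap T m φ' β' := funext hσ
  have hS : (starCl E₀ ((vset T).image φ')).image Subtype.val
      = ((starCl E₀ ((vset T).image φ)).image Subtype.val).image (Sym2.map σ) := by
    rw [← himg', ← himg, Finset.image_image, ← hcomp]
    apply Finset.image_congr
    intro z _
    rw [Function.comp_apply, Sym2.map_map]
  rw [hS]
  exact card_mapsOnto_perm _ _ σ

end Crest.Agent.Helper77.S0076
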