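import Mathlib
import Crest.Agent.Helper77.S0076.Pack

/-!
# Packing with conflicts (helper77; conditional package for row 55)

The step "maximal edge-disjoint family × conflicts" of helper68's closure-type packing:
if every member of a finite family `𝒮` of nonempty sub-hosts of `E₀` with `e` slots each is the
edge image of at least `I` maps of the pattern `F`, and every member meets at most `c` members
of the family, then

  `|𝒮| · I ≤ c · 2 e · n^{|V|} p^e`.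

Nothing here proves a spread bound.
-/

set_option autoImplicit false
set_option linter.unusedSectionVars false
set_option linter.unusedVariables false

namespace Crest.Agent.Helper77.S0076

open Finset Crest.CombinatoricsR.RandomGraph Crest.Agent.Helper52.PP

/-- A maximal pairwise disjoint subfamily: every member of `𝒮` meets a member of it. -/
lemma exists_maximal_disjoint_subfamily {α : Type} [DecidableEq α]
    (𝒮 : Finset (Finset α)) (hne : ∀ S ∈ 𝒮, S.Nonempty) :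
    ∃ 𝒜 : Finset (Finset α), 𝒜 ⊆ 𝒮 ∧ (∀ A ∈ 𝒜, ∀ A' ∈ 𝒜, A ≠ A' → Disjoint A A') ∧
      ∀ S ∈ 𝒮, ∃ A ∈ 𝒜, ¬ Disjoint A S := by
  classical
  set fam : Finset (Finset (Finset α)) :=
    𝒮.powerset.filter (fun 𝒜 => ∀ A ∈ 𝒜, ∀ A' ∈ 𝒜, A ≠ A' → Disjoint A A') with hfam
  have hfne : fam.Nonempty := by
    refine ⟨∅, ?_⟩
    rw [hfam, Finset.mem_filter, Finset.mem_powerset]
    exact ⟨Finset.empty_subset _, fun A hA => absurd hA (Finset.notMem_empty A)⟩
  obtain ⟨𝒜, h𝒜, hmax⟩ := Finset.exists_max_image fam (fun 𝒜 => 𝒜.card) hfne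
  rw [hfam, Finset.mem_filter, Finset.mem_powerset] at h𝒜
  refine ⟨𝒜, h𝒜.1, h𝒜.2, ?_⟩
  intro S hS
  by_contra hcon0
  have hcon : ∀ A ∈ 𝒜, Disjoint A S := fun A hA =>
    Classical.byContradiction (fun h => hcon0 ⟨A, hA, h⟩)
  have hSnot : S ∉ 𝒜 := by
    intro hSA
    have := hcon S hSA
    rw [Finset.disjoint_self_iff_empty] at this
    exact (hne S hS).ne_empty this
  have hins : insert S 𝒜 ∈ fam := by
    rw [hfam, Finset.mem_filter, Finset.mem_powerset]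
    refine ⟨Finset.insert_subset hS h𝒜.1, ?_⟩
    intro A hA A' hA' hAA'
    rcases Finset.mem_insert.1 hA with rfl | hA1
    · rcases Finset.mem_insert.1 hA' with rfl | hA1'
      · exact absurd rfl hAA'
      · exact (hcon A' hA1').symm
    · rcases Finset.mem_insert.1 hA' with rfl | hA1'
      · exact hcon A hA1
      · exact h𝒜.2 A hA1 A' hA1' hAA'
  have hle := hmax (insert S 𝒜) hins
  rw [Finset.card_insert_of_notMem hSnot] at hle
  omega

/-- **Packing with conflicts.** -/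
theorem pack_conflict_le_of_stab {n : ℕ} (E₀ : Finset (EdgeSlot n)) (p : ℝ) (hp0 : 0 ≤ p)
    (hstab : ∀ A ⊆ E₀, (((Finset.univ.filter (fun σ : Equiv.Perm (Fin n) =>
        A.map (slotPerm σ).toEmbedding = A)).card : ℕ) : ℝ)
          ≤ 2 * (n.factorial : ℝ) * p ^ A.card)
    {V : Type} [Fintype V] [DecidableEq V] (F : Finset (Sym2 V))
    (𝒮 : Finset (Finset (EdgeSlot n))) (h𝒮 : ∀ S ∈ 𝒮, S ⊆ E₀) (hne : ∀ S ∈ 𝒮, S.Nonempty)
    (e : ℕ) (hcard : ∀ S ∈ 𝒮, S.card = e)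
    (I : ℕ) (hI : ∀ S ∈ 𝒮, I ≤ (mapsOnto F (S.image Subtype.val)).card)
    (c : ℕ) (hconf : ∀ S ∈ 𝒮, (𝒮.filter (fun S' => ¬ Disjoint S S')).card ≤ c) :
    (𝒮.card : ℝ) * (I : ℝ)
      ≤ (c : ℝ) * (2 * Real.exp 1 * ((n : ℝ) ^ Fintype.card V * p ^ e)) := by
  classical
  obtain ⟨𝒜, h𝒜sub, h𝒜disj, h𝒜max⟩ := exists_maximal_disjoint_subfamily 𝒮 hne
  -- `𝒮` is covered by the conflict sets of the members of `𝒜`
  have hcover : 𝒮 ⊆ 𝒜.biUnion (fun A => 𝒮.filter (fun S' => ¬ Disjoint A S')) := by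
    intro S hS
    obtain ⟨A, hA, hAS⟩ := h𝒜max S hS
    rw [Finset.mem_biUnion]
    exact ⟨A, hA, Finset.mem_filter.2 ⟨hS, hAS⟩⟩
  have hcount : 𝒮.card ≤ 𝒜.card * c := by
    calc 𝒮.card ≤ (𝒜.biUnion (fun A => 𝒮.filter (fun S' => ¬ Disjoint A S'))).card :=
          Finset.card_le_card hcover
      _ ≤ ∑ A ∈ 𝒜, (𝒮.filter (fun S' => ¬ Disjoint A S')).card := Finset.card_biUnion_le
      _ ≤ ∑ _A ∈ 𝒜, c := Finset.sum_le_sum (fun A hA => hconf A (h𝒜sub hA))
      _ = 𝒜.card * c := by rw [Finset.sum_const, smul_eq_mul]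
  -- enumerate `𝒜`
  set M : ℕ := 𝒜.card with hM
  let en : Fin M ≃ {A // A ∈ 𝒜} := (𝒜.equivFin).symm
  have hpack := pack_le_of_stab E₀ p hp0 hstab F M (fun i => (en i).1)
    (fun i => h𝒮 _ (h𝒜sub (en i).2))
    (fun i j hij => h𝒜disj _ (en i).2 _ (en j).2
      (fun h => hij (en.injective (Subtype.ext h))))
    (fun i => hne _ (h𝒜sub (en i).2)) e
    (fun i => hcard _ (h𝒜sub (en i).2)) I
    (fun i => hI _ (h𝒜sub (en i).2))
  have hX0 : (0 : ℝ) ≤ 2 * Real.exp 1 * ((n : ℝ) ^ Fintype.card V * p ^ e) := by positivity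
  have hI0 : (0 : ℝ) ≤ (I : ℝ) := Nat.cast_nonneg I
  have hcount' : (𝒮.card : ℝ) ≤ (M : ℝ) * (c : ℝ) := by exact_mod_cast hcount
  calc (𝒮.card : ℝ) * (I : ℝ) ≤ ((M : ℝ) * (c : ℝ)) * (I : ℝ) :=
        mul_le_mul_of_nonneg_right hcount' hI0
    _ = (c : ℝ) * ((M : ℝ) * (I : ℝ)) := by ring
    _ ≤ (c : ℝ) * (2 * Real.exp 1 * ((n : ℝ) ^ Fintype.card V * p ^ e)) :=
        mul_le_mul_of_nonneg_left hpack (Nat.cast_nonneg c)

end Crest.Agent.Helper77.S0076
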