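import Mathlib
import Crest.Agent.Helper77.S0076.ClosureCount
import Crest.Agent.Helper77.S0076.PackConflict
import Crest.Agent.Helper77.S0076.Kraft

/-!
# The per-type bound of the closure-type packing (helper77; conditional, row 55)

`card_type_le`: for a nonempty pattern `T`, a host `E₀` with the stabiliser bound, and data
`(E', m)`, the embeddings `φ` with `exEdges φ = E'` and outside class sizes `m` satisfy

  `#Φ_{E',m} · ∏_N (m N)! ≤ (v + Σ m) θ^{-(v-1)} (1+θ)^{2 e_d} · 2e · n^{v + Σ m} p^{e_d}`,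

`e_d = #(patE T E' m)`, provided the images of embeddings are connected for a neighbourhood
function `Nb` (hypothesis `hconn`) whose degree sums are at most twice the closure size
(hypothesis `hdeg`).  Nothing here proves a spread bound.
-/

set_option autoImplicit false
set_option linter.unusedSectionVars false
set_option linter.unusedVariables false

namespace Crest.Agent.Helper77.S0076

open Finset Crest.CombinatoricsR.RandomGraph Crest.Agent.Helper52.PP
open scoped Classical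

variable {n : ℕ}

/-- Kraft count with an upper bound on the degree sum. -/
theorem kraft_conn_card_le_of_le {V : Type} [Fintype V] [DecidableEq V] (N : V → Finset V)
    (w : V) (θ : ℝ) (hθ : 0 < θ) (v D : ℕ) :
    (((Finset.univ : Finset (Finset V)).filter (fun B =>
        ConnFrom N w B ∧ B.card = v ∧ ∑ x ∈ B, (N x).card ≤ D)).card : ℝ)
      ≤ (θ⁻¹) ^ (v - 1) * (1 + θ) ^ D := by
  have hsum := kraft_conn_sum_le_one N w θ hθ
  have h1θ : (1 : ℝ) ≤ 1 + θ := by linarith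
  have hpos : (0 : ℝ) < (1 + θ) ^ D := by positivity
  have hθpos : (0 : ℝ) < θ ^ (v - 1) := by positivity
  set 𝒦 := (Finset.univ : Finset (Finset V)).filter (fun B =>
        ConnFrom N w B ∧ B.card = v ∧ ∑ x ∈ B, (N x).card ≤ D) with h𝒦
  have hsub : 𝒦 ⊆ (Finset.univ : Finset (Finset V)).filter (fun B => ConnFrom N w B) := by
    intro B hB
    rw [h𝒦, Finset.mem_filter] at hB
    rw [Finset.mem_filter]
    exact ⟨hB.1, hB.2.1⟩
  have hle : ∑ B ∈ 𝒦, θ ^ (B.card - 1) * ((1 + θ) ^ (∑ x ∈ B, (N x).card))⁻¹ ≤ 1 := by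
    refine le_trans (Finset.sum_le_sum_of_subset_of_nonneg hsub ?_) hsum
    intro B _ _
    have : (0 : ℝ) < (1 + θ) ^ (∑ x ∈ B, (N x).card) := by positivity
    exact mul_nonneg (pow_nonneg hθ.le _) (inv_pos.2 this).le
  have hterm : ∀ B ∈ 𝒦, θ ^ (v - 1) * ((1 + θ) ^ D)⁻¹
      ≤ θ ^ (B.card - 1) * ((1 + θ) ^ (∑ x ∈ B, (N x).card))⁻¹ := by
    intro B hB
    rw [h𝒦, Finset.mem_filter] at hB
    rw [hB.2.2.1]
    apply mul_le_mul_of_nonneg_left _ hθpos.le
    have hpos' : (0 : ℝ) < (1 + θ) ^ (∑ x ∈ B, (N x).card) := by positivity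
    rw [inv_le_inv₀ hpos hpos']
    exact pow_le_pow_right₀ h1θ hB.2.2.2
  have hconst : (𝒦.card : ℝ) * (θ ^ (v - 1) * ((1 + θ) ^ D)⁻¹) ≤ 1 := by
    calc (𝒦.card : ℝ) * (θ ^ (v - 1) * ((1 + θ) ^ D)⁻¹)
        = ∑ _B ∈ 𝒦, θ ^ (v - 1) * ((1 + θ) ^ D)⁻¹ := by
          rw [Finset.sum_const, nsmul_eq_mul]
      _ ≤ ∑ B ∈ 𝒦, θ ^ (B.card - 1) * ((1 + θ) ^ (∑ x ∈ B, (N x).card))⁻¹ :=
          Finset.sum_le_sum hterm
      _ ≤ 1 := hle
  have hinv : (θ⁻¹) ^ (v - 1) * (1 + θ) ^ D = (θ ^ (v - 1) * ((1 + θ) ^ D)⁻¹)⁻¹ := by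
    rw [mul_inv, inv_inv, inv_pow]
  rw [hinv]
  have hpos2 : (0 : ℝ) < θ ^ (v - 1) * ((1 + θ) ^ D)⁻¹ := mul_pos hθpos (inv_pos.2 hpos)
  rw [← one_div, le_div_iff₀ hpos2]
  exact hconst

/-- Packing with conflicts, real conflict bound. -/
theorem pack_conflict_le_of_stab_real (E₀ : Finset (EdgeSlot n)) (p : ℝ) (hp0 : 0 ≤ p)
    (hstab : ∀ A ⊆ E₀, (((Finset.univ.filter (fun σ : Equiv.Perm (Fin n) =>
        A.map (slotPerm σ).toEmbedding = A)).card : ℕ) : ℝ)
          ≤ 2 * (n.factorial : ℝ) * p ^ A.card)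
    {V : Type} [Fintype V] [DecidableEq V] (F : Finset (Sym2 V))
    (𝒮 : Finset (Finset (EdgeSlot n))) (h𝒮 : ∀ S ∈ 𝒮, S ⊆ E₀) (hne : ∀ S ∈ 𝒮, S.Nonempty)
    (e : ℕ) (hcard : ∀ S ∈ 𝒮, S.card = e)
    (I : ℕ) (hI : ∀ S ∈ 𝒮, I ≤ (mapsOnto F (S.image Subtype.val)).card)
    (c : ℝ) (hc : 0 ≤ c)
    (hconf : ∀ S ∈ 𝒮, ((𝒮.filter (fun S' => ¬ Disjoint S S')).card : ℝ) ≤ c) :
    (𝒮.card : ℝ) * (I : ℝ)
      ≤ c * (2 * Real.exp 1 * ((n : ℝ) ^ Fintype.card V * p ^ e)) := by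
  have hconf' : ∀ S ∈ 𝒮, (𝒮.filter (fun S' => ¬ Disjoint S S')).card ≤ ⌊c⌋₊ := by
    intro S hS
    exact Nat.le_floor (hconf S hS)
  have h := pack_conflict_le_of_stab E₀ p hp0 hstab F 𝒮 h𝒮 hne e hcard I hI ⌊c⌋₊ hconf'
  refine le_trans h ?_
  apply mul_le_mul_of_nonneg_right (Nat.floor_le hc)
  positivity

/-- The closure pattern has `v + Σ m` vertices. -/
lemma card_PV (T : Finset (EdgeSlot n)) (m : Finset (Fin n) → ℕ) :
    Fintype.card (PV T m) = (vset T).card + ∑ N : Finset (Fin n), m N := by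
  rw [Fintype.card_sum, Fintype.card_coe, Fintype.card_sigma]
  congr 1
  apply Finset.sum_congr rfl
  intro N _
  rw [Fintype.card_fin]

/-- The star closure of the image of a nonempty pattern is nonempty. -/
lemma starCl_nonempty (E₀ T : Finset (EdgeSlot n)) (hT : T.Nonempty) (φ : Fin n → Fin n)
    (hφ : φ ∈ embs E₀ T) : (starCl E₀ ((vset T).image φ)).Nonempty := by
  have hφ' := (mem_embs E₀ T φ).1 hφ
  obtain ⟨t, ht⟩ := hT
  obtain ⟨s, hsE, hs⟩ := hφ'.2.2 t ht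
  refine ⟨s, ?_⟩
  rw [mem_starCl]
  refine ⟨hsE, ?_⟩
  obtain ⟨a, b, hab⟩ : ∃ a b : Fin n, t.1 = s(a, b) := Sym2.ind (fun a b => ⟨a, b, rfl⟩) t.1
  have ha : a ∈ vset T := (mem_vset T a).2 ⟨t, ht, by rw [hab]; exact Sym2.mem_mk_left a b⟩
  refine ⟨φ a, Finset.mem_image_of_mem φ ha, ?_⟩
  rw [hs, hab, Sym2.map_mk]
  exact Sym2.mem_mk_left _ _

/-- The closure has at most `v + Σ m` vertices. -/
lemma card_vset_starCl_le (E₀ T : Finset (EdgeSlot n)) (φ : Fin n → Fin n)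
    (hφ : φ ∈ embs E₀ T) (m : Finset (Fin n) → ℕ)
    (hm : ∀ N, (outCls E₀ T φ N).card = m N) :
    (vset (starCl E₀ ((vset T).image φ))).card
      ≤ (vset T).card + ∑ N : Finset (Fin n), m N := by
  obtain ⟨β, hβmem, hβinj, hβsurj⟩ := exists_beta E₀ T φ m hm
  have himg := image_patE_clMap E₀ T m φ hφ β hβmem hβsurj
  rw [← card_PV T m]
  have hsubset : vset (starCl E₀ ((vset T).image φ))
      ⊆ (Finset.univ : Finset (PV T m)).image (clMap T m φ β) := by
    intro x hx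
    rw [mem_vset] at hx
    obtain ⟨s, hs, hxs⟩ := hx
    have hs' : s.1 ∈ (starCl E₀ ((vset T).image φ)).image Subtype.val :=
      Finset.mem_image_of_mem _ hs
    rw [← himg, Finset.mem_image] at hs'
    obtain ⟨z, -, hz⟩ := hs'
    rw [← hz, Sym2.mem_map] at hxs
    obtain ⟨y, -, hy⟩ := hxs
    rw [Finset.mem_image]
    exact ⟨y, Finset.mem_univ _, hy⟩
  calc (vset (starCl E₀ ((vset T).image φ))).card
      ≤ ((Finset.univ : Finset (PV T m)).image (clMap T m φ β)).card :=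
        Finset.card_le_card hsubset
    _ ≤ (Finset.univ : Finset (PV T m)).card := Finset.card_image_le
    _ = Fintype.card (PV T m) := Finset.card_univ

/-- **The per-type bound.** -/
theorem card_type_le (E₀ : Finset (EdgeSlot n)) (p : ℝ) (hp0 : 0 ≤ p)
    (hstab : ∀ A ⊆ E₀, (((Finset.univ.filter (fun σ : Equiv.Perm (Fin n) =>
        A.map (slotPerm σ).toEmbedding = A)).card : ℕ) : ℝ)
          ≤ 2 * (n.factorial : ℝ) * p ^ A.card)
    (T : Finset (EdgeSlot n)) (hT : T.Nonempty) (Nb : Fin n → Finset (Fin n))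
    (hconn : ∀ φ ∈ embs E₀ T, ∀ x₀ ∈ vset T, ConnFrom Nb (φ x₀) ((vset T).image φ))
    (hdeg : ∀ B : Finset (Fin n), ∑ u ∈ B, (Nb u).card ≤ 2 * (starCl E₀ B).card)
    (θ : ℝ) (hθ : 0 < θ) (E' : Finset (EdgeSlot n)) (m : Finset (Fin n) → ℕ) :
    (((embs E₀ T).filter (fun φ => exEdges E₀ T φ = E' ∧
        ∀ N, (outCls E₀ T φ N).card = m N)).card : ℝ) * ∏ N : Finset (Fin n), ((m N).factorial : ℝ)
      ≤ (((vset T).card + ∑ N : Finset (Fin n), m N : ℕ) : ℝ) * (θ⁻¹) ^ ((vset T).card - 1)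
          * (1 + θ) ^ (2 * (patE T E' m).card)
          * (2 * Real.exp 1 * ((n : ℝ) ^ ((vset T).card + ∑ N : Finset (Fin n), m N)
              * p ^ (patE T E' m).card)) := by
  set Φd : Finset (Fin n → Fin n) := (embs E₀ T).filter (fun φ => exEdges E₀ T φ = E' ∧
        ∀ N, (outCls E₀ T φ N).card = m N) with hΦd
  have hθ1 : (0 : ℝ) < 1 + θ := by linarith
  rcases Finset.eq_empty_or_nonempty Φd with hemp | ⟨φ₀, hφ₀⟩
  · rw [hemp, Finset.card_empty, Nat.cast_zero, zero_mul]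
    positivity
  have hmemΦ : ∀ φ ∈ Φd, φ ∈ embs E₀ T ∧ exEdges E₀ T φ = E' ∧
      ∀ N, (outCls E₀ T φ N).card = m N := by
    intro φ hφ
    rw [hΦd, Finset.mem_filter] at hφ
    exact hφ
  have h₀ := hmemΦ φ₀ hφ₀
  set cl : (Fin n → Fin n) → Finset (EdgeSlot n) :=
    fun φ => starCl E₀ ((vset T).image φ) with hcl
  set 𝒮 : Finset (Finset (EdgeSlot n)) := Φd.image cl with h𝒮
  set I : ℕ := (mapsOnto (patE T E' m) ((cl φ₀).image Subtype.val)).card with hI
  have hS : ∀ S ∈ 𝒮, ∃ φ ∈ Φd, cl φ = S := by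
    intro S hSm
    rw [h𝒮, Finset.mem_image] at hSm
    exact hSm
  have hsub : ∀ S ∈ 𝒮, S ⊆ E₀ := by
    intro S hSm
    obtain ⟨φ, -, rfl⟩ := hS S hSm
    exact starCl_subset E₀ _
  have hne : ∀ S ∈ 𝒮, S.Nonempty := by
    intro S hSm
    obtain ⟨φ, hφ, rfl⟩ := hS S hSm
    exact starCl_nonempty E₀ T hT φ (hmemΦ φ hφ).1
  have hcardcl : ∀ φ ∈ Φd, (cl φ).card = (patE T E' m).card := by
    intro φ hφ
    have h := hmemΦ φ hφ
    have := card_starCl_eq_card_patE E₀ T φ h.1 m h.2.2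
    rw [h.2.1] at this
    exact this
  have hcard : ∀ S ∈ 𝒮, S.card = (patE T E' m).card := by
    intro S hSm
    obtain ⟨φ, hφ, rfl⟩ := hS S hSm
    exact hcardcl φ hφ
  have hIeq : ∀ S ∈ 𝒮, (mapsOnto (patE T E' m) (S.image Subtype.val)).card = I := by
    intro S hSm
    obtain ⟨φ, hφ, rfl⟩ := hS S hSm
    have h := hmemΦ φ hφ
    have := card_mapsOnto_closure_eq E₀ T φ₀ φ h₀.1 h.1 m h₀.2.2 h.2.2
      (by rw [h.2.1, h₀.2.1])
    rw [h₀.2.1] at this
    exact this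
  -- conflicts
  have hconf : ∀ S ∈ 𝒮, ((𝒮.filter (fun S' => ¬ Disjoint S S')).card : ℝ)
      ≤ (((vset T).card + ∑ N : Finset (Fin n), m N : ℕ) : ℝ) * ((θ⁻¹) ^ ((vset T).card - 1)
          * (1 + θ) ^ (2 * (patE T E' m).card)) := by
    intro S hSm
    obtain ⟨φ, hφ, rfl⟩ := hS S hSm
    have hφm := hmemΦ φ hφ
    set 𝒦 : Finset (Finset (Fin n)) := (vset (cl φ)).biUnion (fun w =>
      (Finset.univ : Finset (Finset (Fin n))).filter (fun B' =>
        ConnFrom Nb w B' ∧ B'.card = (vset T).card ∧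
          ∑ u ∈ B', (Nb u).card ≤ 2 * (patE T E' m).card)) with h𝒦
    have hsubK : 𝒮.filter (fun S' => ¬ Disjoint (cl φ) S')
        ⊆ 𝒦.image (fun B' => starCl E₀ B') := by
      intro S' hS'
      rw [Finset.mem_filter] at hS'
      obtain ⟨φ', hφ', rfl⟩ := hS S' hS'.1
      have hφ'm := hmemΦ φ' hφ'
      rw [Finset.mem_image]
      refine ⟨(vset T).image φ', ?_, rfl⟩
      obtain ⟨s, hs1, hs2⟩ := Finset.not_disjoint_iff.1 hS'.2
      obtain ⟨hsE, x, hxB, hxs⟩ := (mem_starCl E₀ _ s).1 hs2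
      rw [h𝒦, Finset.mem_biUnion]
      refine ⟨x, (mem_vset _ x).2 ⟨s, hs1, hxs⟩, ?_⟩
      rw [Finset.mem_filter]
      obtain ⟨x₀, hx₀, rfl⟩ := Finset.mem_image.1 hxB
      refine ⟨Finset.mem_univ _, hconn φ' hφ'm.1 x₀ hx₀, ?_, ?_⟩
      · exact Finset.card_image_of_injOn ((mem_embs E₀ T φ').1 hφ'm.1).2.1
      · calc ∑ u ∈ (vset T).image φ', (Nb u).card
            ≤ 2 * (starCl E₀ ((vset T).image φ')).card := hdeg _
          _ = 2 * (patE T E' m).card := by rw [hcardcl φ' hφ']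
    have hK : (𝒦.card : ℝ) ≤ ((vset (cl φ)).card : ℝ) * ((θ⁻¹) ^ ((vset T).card - 1)
          * (1 + θ) ^ (2 * (patE T E' m).card)) := by
      calc (𝒦.card : ℝ) ≤ ((∑ w ∈ vset (cl φ), ((Finset.univ : Finset (Finset (Fin n))).filter
            (fun B' => ConnFrom Nb w B' ∧ B'.card = (vset T).card ∧
              ∑ u ∈ B', (Nb u).card ≤ 2 * (patE T E' m).card)).card : ℕ) : ℝ) := by
            exact_mod_cast Finset.card_biUnion_le
        _ = ∑ w ∈ vset (cl φ), (((Finset.univ : Finset (Finset (Fin n))).filter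
            (fun B' => ConnFrom Nb w B' ∧ B'.card = (vset T).card ∧
              ∑ u ∈ B', (Nb u).card ≤ 2 * (patE T E' m).card)).card : ℝ) := by
            push_cast
            rfl
        _ ≤ ∑ _w ∈ vset (cl φ), ((θ⁻¹) ^ ((vset T).card - 1)
              * (1 + θ) ^ (2 * (patE T E' m).card)) :=
            Finset.sum_le_sum (fun w _ => kraft_conn_card_le_of_le Nb w θ hθ _ _)
        _ = ((vset (cl φ)).card : ℝ) * ((θ⁻¹) ^ ((vset T).card - 1)
              * (1 + θ) ^ (2 * (patE T E' m).card)) := by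
            rw [Finset.sum_const, nsmul_eq_mul]
    have hvs : ((vset (cl φ)).card : ℝ)
        ≤ (((vset T).card + ∑ N : Finset (Fin n), m N : ℕ) : ℝ) := by
      exact_mod_cast card_vset_starCl_le E₀ T φ hφm.1 m hφm.2.2
    calc ((𝒮.filter (fun S' => ¬ Disjoint (cl φ) S')).card : ℝ)
        ≤ ((𝒦.image (fun B' => starCl E₀ B')).card : ℝ) := by
          exact_mod_cast Finset.card_le_card hsubK
      _ ≤ (𝒦.card : ℝ) := by exact_mod_cast Finset.card_image_le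
      _ ≤ _ := hK
      _ ≤ _ := mul_le_mul_of_nonneg_right hvs (by positivity)
  have hc0 : (0 : ℝ) ≤ (((vset T).card + ∑ N : Finset (Fin n), m N : ℕ) : ℝ)
      * ((θ⁻¹) ^ ((vset T).card - 1) * (1 + θ) ^ (2 * (patE T E' m).card)) := by positivity
  have hpack := pack_conflict_le_of_stab_real E₀ p hp0 hstab (patE T E' m) 𝒮 hsub hne
    (patE T E' m).card hcard I (fun S hSm => (hIeq S hSm).ge) _ hc0 hconf
  rw [card_PV T m] at hpack
  -- orbit count
  have horb : ∀ S ∈ 𝒮, (Φd.filter (fun φ => cl φ = S)).card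
      * ∏ N : Finset (Fin n), (m N).factorial ≤ I := by
    intro S hSm
    have h := orbit_count_le E₀ T E' m S
    rw [hIeq S hSm] at h
    refine le_trans (Nat.mul_le_mul_right _ (Finset.card_le_card ?_)) h
    intro φ hφ
    rw [Finset.mem_filter] at hφ
    have hφm := hmemΦ φ hφ.1
    rw [Finset.mem_filter]
    exact ⟨hφm.1, hφm.2.1, hφm.2.2, hφ.2⟩
  have hsum : Φd.card = ∑ S ∈ 𝒮, (Φd.filter (fun φ => cl φ = S)).card :=
    Finset.card_eq_sum_card_image cl Φd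
  have hnat : Φd.card * ∏ N : Finset (Fin n), (m N).factorial ≤ 𝒮.card * I := by
    rw [hsum, Finset.sum_mul]
    calc ∑ S ∈ 𝒮, (Φd.filter (fun φ => cl φ = S)).card * ∏ N : Finset (Fin n), (m N).factorial
        ≤ ∑ _S ∈ 𝒮, I := Finset.sum_le_sum horb
      _ = 𝒮.card * I := by rw [Finset.sum_const, smul_eq_mul]
  have hcast : (Φd.card : ℝ) * ∏ N : Finset (Fin n), ((m N).factorial : ℝ)
      ≤ (𝒮.card : ℝ) * (I : ℝ) := by
    have : ((Φd.card * ∏ N : Finset (Fin n), (m N).factorial : ℕ) : ℝ)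
        ≤ ((𝒮.card * I : ℕ) : ℝ) := by exact_mod_cast hnat
    push_cast at this
    exact this
  refine le_trans hcast (le_trans hpack (le_of_eq ?_))
  ring

end Crest.Agent.Helper77.S0076
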