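import Mathlib

/-!
# The Poisson type sum (helper77; conditional package for row 55)

`∑_{m ∈ s} ∏_i a_i^{m_i} / m_i! ≤ exp (∑_i a_i)` for every finite set `s` of multi-indices
`m : ι → ℕ` and nonnegative weights `a`.  This is the sum over the twin multiplicities
`(m_N)_N` in the type sum of helper68's closure-type packing.  Mathlib only.
-/

set_option autoImplicit false
set_option linter.unusedSectionVars false
set_option linter.unusedVariables false

namespace Crest.Agent.Helper77.S0076

open Finset

theorem type_sum_le_exp {ι : Type} [Fintype ι] [DecidableEq ι] (a : ι → ℝ) (ha : ∀ i, 0 ≤ a i)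
    (s : Finset (ι → ℕ)) :
    ∑ m ∈ s, ∏ i, a i ^ m i / ((m i).factorial : ℝ) ≤ Real.exp (∑ i, a i) := by
  classical
  set B : ℕ := s.sup (fun m => ∑ i, m i) with hB
  have hsub : s ⊆ Fintype.piFinset (fun _ : ι => Finset.range (B + 1)) := by
    intro m hm
    rw [Fintype.mem_piFinset]
    intro i
    rw [Finset.mem_range]
    have h1 : m i ≤ ∑ j, m j := Finset.single_le_sum (fun j _ => Nat.zero_le (m j))
      (Finset.mem_univ i)
    have h2 : (∑ j, m j) ≤ B := Finset.le_sup (f := fun m : ι → ℕ => ∑ i, m i) hm
    omega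
  have hnn : ∀ m ∈ Fintype.piFinset (fun _ : ι => Finset.range (B + 1)), m ∉ s →
      0 ≤ ∏ i, a i ^ m i / ((m i).factorial : ℝ) := by
    intro m _ _
    apply Finset.prod_nonneg
    intro i _
    exact div_nonneg (pow_nonneg (ha i) _) (Nat.cast_nonneg _)
  calc ∑ m ∈ s, ∏ i, a i ^ m i / ((m i).factorial : ℝ)
      ≤ ∑ m ∈ Fintype.piFinset (fun _ : ι => Finset.range (B + 1)),
          ∏ i, a i ^ m i / ((m i).factorial : ℝ) :=
        Finset.sum_le_sum_of_subset_of_nonneg hsub hnn
    _ = ∏ i, ∑ j ∈ Finset.range (B + 1), a i ^ j / (j.factorial : ℝ) := by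
        rw [Finset.prod_univ_sum]
    _ ≤ ∏ i, Real.exp (a i) := by
        apply Finset.prod_le_prod
        · intro i _
          apply Finset.sum_nonneg
          intro j _
          exact div_nonneg (pow_nonneg (ha i) _) (Nat.cast_nonneg _)
        · intro i _
          exact Real.sum_le_exp_of_nonneg (ha i) (B + 1)
    _ = Real.exp (∑ i, a i) := (Real.exp_sum Finset.univ a).symm

end Crest.Agent.Helper77.S0076
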