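import Mathlib
import Crest.Agent.Helper77.S0076.ClosureType
import Crest.Agent.Helper77.S0076.TypeSum

/-!
# The type sum of the closure-type packing (helper77; conditional, row 55)

* `card_type_le'` : the per-type bound in product form;
* `card_embs_le`  : summing over all data `(E', m)`:
  `#embs ≤ 2e θ^{-(v-1)} v n^v q^e (1+q)^{v²} exp(2n((1+q)^v - 1))`, `q = (1+θ)² p`.

Hypotheses `hconn`, `hdeg` (helper52's `connFrom_image`, `degsum_le`), `hpat` (the closure
pattern has at least `e + |E'| + Σ m_N |N|` edges) and `hP` (at most `v²` pairs inside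
`vset T`) are discharged in the final assembly.  Nothing here proves a spread bound.
-/

set_option autoImplicit false
set_option linter.unusedSectionVars false
set_option linter.unusedVariables false

namespace Crest.Agent.Helper77.S0076

open Finset Crest.CombinatoricsR.RandomGraph Crest.Agent.Helper52.PP
open scoped Classical

variable {n : ℕ}

/-- The per-type bound, product form. -/
theorem card_type_le' (E₀ : Finset (EdgeSlot n)) (p : ℝ) (hp0 : 0 ≤ p)
    (hstab : ∀ A ⊆ E₀, (((Finset.univ.filter (fun σ : Equiv.Perm (Fin n) =>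
        A.map (slotPerm σ).toEmbedding = A)).card : ℕ) : ℝ)
          ≤ 2 * (n.factorial : ℝ) * p ^ A.card)
    (T : Finset (EdgeSlot n)) (hT : T.Nonempty) (Nb : Fin n → Finset (Fin n))
    (hconn : ∀ φ ∈ embs E₀ T, ∀ x₀ ∈ vset T, ConnFrom Nb (φ x₀) ((vset T).image φ))
    (hdeg : ∀ B : Finset (Fin n), ∑ u ∈ B, (Nb u).card ≤ 2 * (starCl E₀ B).card)
    (θ : ℝ) (hθ : 0 < θ) (hq : (1 + θ) ^ 2 * p ≤ 1) (hv : 1 ≤ (vset T).card)
    (E' : Finset (EdgeSlot n)) (m : Finset (Fin n) → ℕ)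
    (hpat : T.card + E'.card + ∑ N : Finset (Fin n), m N * N.card ≤ (patE T E' m).card) :
    (((embs E₀ T).filter (fun φ => exEdges E₀ T φ = E' ∧
        ∀ N, (outCls E₀ T φ N).card = m N)).card : ℝ)
      ≤ 2 * Real.exp 1 * (θ⁻¹) ^ ((vset T).card - 1) * ((vset T).card : ℝ)
          * (n : ℝ) ^ (vset T).card * ((1 + θ) ^ 2 * p) ^ T.card
          * (((1 + θ) ^ 2 * p) ^ E'.card
            * ∏ N : Finset (Fin n),
                (2 * (n : ℝ) * ((1 + θ) ^ 2 * p) ^ N.card) ^ (m N) / ((m N).factorial : ℝ)) := by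
  have h := card_type_le E₀ p hp0 hstab T hT Nb hconn hdeg θ hθ E' m
  set X : ℝ := (((embs E₀ T).filter (fun φ => exEdges E₀ T φ = E' ∧
        ∀ N, (outCls E₀ T φ N).card = m N)).card : ℝ) with hX
  set M : ℕ := ∑ N : Finset (Fin n), m N with hM
  set ed : ℕ := (patE T E' m).card with hed
  set v : ℕ := (vset T).card with hvdef
  set q : ℝ := (1 + θ) ^ 2 * p with hqdef
  have hθ1 : (0 : ℝ) < 1 + θ := by linarith
  have hq0 : 0 ≤ q := by positivity
  have hn0 : (0 : ℝ) ≤ (n : ℝ) := Nat.cast_nonneg n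
  have hY : (0 : ℝ) < ∏ N : Finset (Fin n), ((m N).factorial : ℝ) :=
    Finset.prod_pos (fun N _ => by exact_mod_cast Nat.factorial_pos _)
  have hprod : ∏ N : Finset (Fin n), (2 * (n : ℝ) * q ^ N.card) ^ (m N)
      = 2 ^ M * (n : ℝ) ^ M * q ^ (∑ N : Finset (Fin n), m N * N.card) := by
    simp_rw [mul_pow]
    rw [Finset.prod_mul_distrib, Finset.prod_mul_distrib, Finset.prod_pow_eq_pow_sum,
      Finset.prod_pow_eq_pow_sum]
    congr 1
    rw [← Finset.prod_pow_eq_pow_sum]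
    apply Finset.prod_congr rfl
    intro N _
    rw [← pow_mul, mul_comm]
  have hqe : (1 + θ) ^ (2 * ed) * p ^ ed = q ^ ed := by
    rw [pow_mul, ← mul_pow]
  have hqle : q ^ ed ≤ q ^ (T.card + E'.card + ∑ N : Finset (Fin n), m N * N.card) :=
    pow_le_pow_of_le_one hq0 hq hpat
  have hvM : ((v + M : ℕ) : ℝ) ≤ (v : ℝ) * 2 ^ M := by
    have h1 : M + 1 ≤ 2 ^ M := Nat.lt_two_pow_self
    have h2 : v + M ≤ v * 2 ^ M := by
      calc v + M ≤ v + v * M := by
            have : M ≤ v * M := Nat.le_mul_of_pos_left M hv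
            omega
        _ = v * (M + 1) := by ring
        _ ≤ v * 2 ^ M := Nat.mul_le_mul_left v h1
    exact_mod_cast h2
  have hR : X * ∏ N : Finset (Fin n), ((m N).factorial : ℝ)
      ≤ 2 * Real.exp 1 * (θ⁻¹) ^ (v - 1) * (v : ℝ) * (n : ℝ) ^ v * q ^ T.card
          * (q ^ E'.card * ∏ N : Finset (Fin n), (2 * (n : ℝ) * q ^ N.card) ^ (m N)) := by
    refine le_trans h ?_
    rw [hprod]
    have hA : (0 : ℝ) ≤ 2 * Real.exp 1 * (θ⁻¹) ^ (v - 1) * (n : ℝ) ^ (v + M) := by positivity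
    calc ((v + M : ℕ) : ℝ) * (θ⁻¹) ^ (v - 1) * (1 + θ) ^ (2 * ed)
          * (2 * Real.exp 1 * ((n : ℝ) ^ (v + M) * p ^ ed))
        = ((v + M : ℕ) : ℝ) * (2 * Real.exp 1 * (θ⁻¹) ^ (v - 1) * (n : ℝ) ^ (v + M))
            * ((1 + θ) ^ (2 * ed) * p ^ ed) := by ring
      _ = ((v + M : ℕ) : ℝ) * (2 * Real.exp 1 * (θ⁻¹) ^ (v - 1) * (n : ℝ) ^ (v + M))
            * q ^ ed := by rw [hqe]
      _ ≤ ((v : ℝ) * 2 ^ M) * (2 * Real.exp 1 * (θ⁻¹) ^ (v - 1) * (n : ℝ) ^ (v + M))
            * q ^ (T.card + E'.card + ∑ N : Finset (Fin n), m N * N.card) := by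
          apply mul_le_mul _ hqle (pow_nonneg hq0 _) (by positivity)
          exact mul_le_mul_of_nonneg_right hvM hA
      _ = 2 * Real.exp 1 * (θ⁻¹) ^ (v - 1) * (v : ℝ) * (n : ℝ) ^ v * q ^ T.card
            * (q ^ E'.card * (2 ^ M * (n : ℝ) ^ M
              * q ^ (∑ N : Finset (Fin n), m N * N.card))) := by
          rw [pow_add, pow_add, pow_add]
          ring
  have hdiv : X ≤ (2 * Real.exp 1 * (θ⁻¹) ^ (v - 1) * (v : ℝ) * (n : ℝ) ^ v * q ^ T.card
          * (q ^ E'.card * ∏ N : Finset (Fin n), (2 * (n : ℝ) * q ^ N.card) ^ (m N)))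
        / ∏ N : Finset (Fin n), ((m N).factorial : ℝ) := by
    rw [le_div_iff₀ hY]
    exact hR
  refine le_trans hdiv (le_of_eq ?_)
  rw [Finset.prod_div_distrib]
  ring

/-- **The type sum.** -/
theorem card_embs_le (E₀ : Finset (EdgeSlot n)) (p : ℝ) (hp0 : 0 ≤ p)
    (hstab : ∀ A ⊆ E₀, (((Finset.univ.filter (fun σ : Equiv.Perm (Fin n) =>
        A.map (slotPerm σ).toEmbedding = A)).card : ℕ) : ℝ)
          ≤ 2 * (n.factorial : ℝ) * p ^ A.card)
    (T : Finset (EdgeSlot n)) (hT : T.Nonempty) (Nb : Fin n → Finset (Fin n))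
    (hconn : ∀ φ ∈ embs E₀ T, ∀ x₀ ∈ vset T, ConnFrom Nb (φ x₀) ((vset T).image φ))
    (hdeg : ∀ B : Finset (Fin n), ∑ u ∈ B, (Nb u).card ≤ 2 * (starCl E₀ B).card)
    (θ : ℝ) (hθ : 0 < θ) (hq : (1 + θ) ^ 2 * p ≤ 1)
    (hpat : ∀ φ ∈ embs E₀ T, T.card + (exEdges E₀ T φ).card
        + ∑ N : Finset (Fin n), (outCls E₀ T φ N).card * N.card
          ≤ (patE T (exEdges E₀ T φ) (fun N => (outCls E₀ T φ N).card)).card)
    (hP : (Finset.univ.filter (fun t : EdgeSlot n => ∀ x ∈ t.1, x ∈ vset T)).card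
        ≤ (vset T).card ^ 2) :
    ((embs E₀ T).card : ℝ)
      ≤ 2 * Real.exp 1 * (θ⁻¹) ^ ((vset T).card - 1) * ((vset T).card : ℝ)
          * (n : ℝ) ^ (vset T).card * ((1 + θ) ^ 2 * p) ^ T.card
          * ((1 + (1 + θ) ^ 2 * p) ^ ((vset T).card ^ 2)
            * Real.exp (2 * (n : ℝ) * ((1 + (1 + θ) ^ 2 * p) ^ (vset T).card - 1))) := by
  set q : ℝ := (1 + θ) ^ 2 * p with hqdef
  set v : ℕ := (vset T).card with hvdef
  have hθ1 : (0 : ℝ) < 1 + θ := by linarith
  have hq0 : 0 ≤ q := by positivity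
  have hn0 : (0 : ℝ) ≤ (n : ℝ) := Nat.cast_nonneg n
  have hv : 1 ≤ v := by
    obtain ⟨t, ht⟩ := hT
    obtain ⟨a, b, hab⟩ : ∃ a b : Fin n, t.1 = s(a, b) := Sym2.ind (fun a b => ⟨a, b, rfl⟩) t.1
    have ha : a ∈ vset T := (mem_vset T a).2 ⟨t, ht, by rw [hab]; exact Sym2.mem_mk_left a b⟩
    exact Finset.card_pos.2 ⟨a, ha⟩
  set C₀ : ℝ := 2 * Real.exp 1 * (θ⁻¹) ^ (v - 1) * (v : ℝ) * (n : ℝ) ^ v * q ^ T.card with hC₀def
  have hC₀ : 0 ≤ C₀ := by positivity
  set dat : (Fin n → Fin n) → Finset (EdgeSlot n) × (Finset (Fin n) → ℕ) :=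
    fun φ => (exEdges E₀ T φ, fun N => (outCls E₀ T φ N).card) with hdat
  set D : Finset (Finset (EdgeSlot n) × (Finset (Fin n) → ℕ)) := (embs E₀ T).image dat with hD
  set a : Finset (Fin n) → ℝ :=
    fun N => if N ⊆ vset T ∧ N.Nonempty then 2 * (n : ℝ) * q ^ N.card else 0 with hadef
  have ha : ∀ N, 0 ≤ a N := by
    intro N
    rw [hadef]
    dsimp only
    split_ifs
    · positivity
    · exact le_refl 0
  set g : (Finset (Fin n) → ℕ) → ℝ :=
    fun m => ∏ N : Finset (Fin n), a N ^ m N / ((m N).factorial : ℝ) with hg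
  have hg0 : ∀ m, 0 ≤ g m := by
    intro m
    rw [hg]
    apply Finset.prod_nonneg
    intro N _
    exact div_nonneg (pow_nonneg (ha N) _) (Nat.cast_nonneg _)
  set P : Finset (EdgeSlot n) :=
    Finset.univ.filter (fun t : EdgeSlot n => ∀ x ∈ t.1, x ∈ vset T) with hPdef
  -- the bound for one datum
  have hper : ∀ d ∈ D, (((embs E₀ T).filter (fun φ => dat φ = d)).card : ℝ)
      ≤ C₀ * (q ^ d.1.card * g d.2) := by
    intro d hd
    obtain ⟨φd, hφd, rfl⟩ := Finset.mem_image.1 hd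
    have hsub : (embs E₀ T).filter (fun φ => dat φ = dat φd)
        ⊆ (embs E₀ T).filter (fun φ => exEdges E₀ T φ = (dat φd).1 ∧
            ∀ N, (outCls E₀ T φ N).card = (dat φd).2 N) := by
      intro φ hφ
      rw [Finset.mem_filter] at hφ ⊢
      exact ⟨hφ.1, congrArg Prod.fst hφ.2, fun N => congrFun (congrArg Prod.snd hφ.2) N⟩
    have h1 := card_type_le' E₀ p hp0 hstab T hT Nb hconn hdeg θ hθ hq hv (dat φd).1 (dat φd).2
      (hpat φd hφd)
    have h2 : (((embs E₀ T).filter (fun φ => dat φ = dat φd)).card : ℝ)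
        ≤ (((embs E₀ T).filter (fun φ => exEdges E₀ T φ = (dat φd).1 ∧
            ∀ N, (outCls E₀ T φ N).card = (dat φd).2 N)).card : ℝ) := by
      exact_mod_cast Finset.card_le_card hsub
    refine le_trans h2 (le_trans h1 (le_of_eq ?_))
    have hprodeq : ∏ N : Finset (Fin n),
          (2 * (n : ℝ) * q ^ N.card) ^ ((dat φd).2 N) / (((dat φd).2 N).factorial : ℝ)
        = g (dat φd).2 := by
      rw [hg]
      apply Finset.prod_congr rfl
      intro N _
      by_cases hmN : (dat φd).2 N = 0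
      · rw [hmN, pow_zero, pow_zero]
      · have hNN : N ⊆ vset T ∧ N.Nonempty := by
          have hpos : 0 < (outCls E₀ T φd N).card := Nat.pos_of_ne_zero hmN
          obtain ⟨u, hu⟩ := Finset.card_pos.1 hpos
          have := (mem_outCls E₀ T φd N u).1 hu
          exact ⟨this.2.1, this.2.2.1⟩
        have haN : a N = 2 * (n : ℝ) * q ^ N.card := by
          rw [hadef]
          dsimp only
          rw [if_pos hNN]
        rw [haN]
    rw [hprodeq]
  have hcardsum : (embs E₀ T).card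
      = ∑ d ∈ D, ((embs E₀ T).filter (fun φ => dat φ = d)).card :=
    Finset.card_eq_sum_card_image dat (embs E₀ T)
  have hDsub : D ⊆ P.powerset ×ˢ (D.image Prod.snd) := by
    intro d hd
    rw [Finset.mem_product, Finset.mem_powerset]
    refine ⟨?_, Finset.mem_image_of_mem _ hd⟩
    obtain ⟨φd, hφd, rfl⟩ := Finset.mem_image.1 hd
    intro t ht
    have := (mem_exEdges E₀ T φd t).1 ht
    rw [hPdef, Finset.mem_filter]
    exact ⟨Finset.mem_univ _, this.2.1⟩
  -- the two factor sums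
  have hsumE : ∑ E' ∈ P.powerset, q ^ E'.card ≤ (1 + q) ^ (v ^ 2) := by
    have h := Finset.sum_pow_mul_eq_add_pow q (1 : ℝ) P
    simp only [one_pow, mul_one] at h
    rw [h, add_comm q 1]
    exact pow_le_pow_right₀ (by linarith) hP
  have hsuma : ∑ N : Finset (Fin n), a N = 2 * (n : ℝ) * ((1 + q) ^ v - 1) := by
    have h1 : ∑ N : Finset (Fin n), a N
        = ∑ N ∈ (Finset.univ : Finset (Finset (Fin n))).filter
            (fun N => N ⊆ vset T ∧ N.Nonempty), 2 * (n : ℝ) * q ^ N.card := by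
      rw [Finset.sum_filter]
    have h2 : (Finset.univ : Finset (Finset (Fin n))).filter
        (fun N => N ⊆ vset T ∧ N.Nonempty) = (vset T).powerset.erase ∅ := by
      ext N
      rw [Finset.mem_filter, Finset.mem_erase, Finset.mem_powerset,
        Finset.nonempty_iff_ne_empty]
      exact ⟨fun h => ⟨h.2.2, h.2.1⟩, fun h => ⟨Finset.mem_univ _, h.2, h.1⟩⟩
    have h3 := Finset.sum_erase_eq_sub (f := fun N : Finset (Fin n) => 2 * (n : ℝ) * q ^ N.card)
      (Finset.empty_mem_powerset (vset T))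
    have h4 := Finset.sum_pow_mul_eq_add_pow q (1 : ℝ) (vset T)
    simp only [one_pow, mul_one] at h4
    rw [h1, h2, h3, ← Finset.mul_sum, h4, Finset.card_empty, pow_zero, add_comm q 1]
    ring
  have hsumg : ∑ m ∈ D.image Prod.snd, g m ≤ Real.exp (2 * (n : ℝ) * ((1 + q) ^ v - 1)) := by
    have h := type_sum_le_exp a ha (D.image Prod.snd)
    rw [hsuma] at h
    exact h
  have hsumE0 : (0 : ℝ) ≤ ∑ E' ∈ P.powerset, q ^ E'.card :=
    Finset.sum_nonneg (fun E' _ => pow_nonneg hq0 _)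
  have hsumg0 : (0 : ℝ) ≤ ∑ m ∈ D.image Prod.snd, g m :=
    Finset.sum_nonneg (fun m _ => hg0 m)
  calc ((embs E₀ T).card : ℝ)
      = ∑ d ∈ D, (((embs E₀ T).filter (fun φ => dat φ = d)).card : ℝ) := by
        rw [hcardsum]
        push_cast
        rfl
    _ ≤ ∑ d ∈ D, C₀ * (q ^ d.1.card * g d.2) := Finset.sum_le_sum hper
    _ ≤ ∑ d ∈ P.powerset ×ˢ (D.image Prod.snd), C₀ * (q ^ d.1.card * g d.2) :=
        Finset.sum_le_sum_of_subset_of_nonneg hDsub
          (fun d _ _ => mul_nonneg hC₀ (mul_nonneg (pow_nonneg hq0 _) (hg0 d.2)))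
    _ = C₀ * ((∑ E' ∈ P.powerset, q ^ E'.card) * (∑ m ∈ D.image Prod.snd, g m)) := by
        rw [Finset.sum_product, Finset.sum_mul_sum, Finset.mul_sum]
        apply Finset.sum_congr rfl
        intro x _
        rw [Finset.mul_sum]
    _ ≤ C₀ * ((1 + q) ^ (v ^ 2) * Real.exp (2 * (n : ℝ) * ((1 + q) ^ v - 1))) := by
        apply mul_le_mul_of_nonneg_left _ hC₀
        exact mul_le_mul hsumE hsumg hsumg0 (by positivity)

end Crest.Agent.Helper77.S0076
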