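import Mathlib
import Crest.Agent.Helper77.S0076.ClosureSum
import Crest.Agent.Helper52.S0076.StarLeaves
import Crest.Agent.Helper52.S0076.PairCount
import Crest.Agent.Helper52.S0076.ClosureNumeric
import Crest.Agent.Helper52.S0076.VSL
import Crest.Agent.Helper84.S0076.Components
import Crest.Agent.Helper65.S0076.PatCard
import Crest.Agent.Helper68.S0076.MiddleSplit

/-!
# The closure theorem for `n p ≤ 1`: final assembly (helper77; conditional, row 55)

Formalisation of helper68's closure-type packing (`notes/s0076_helper68_closure.md`) in the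
regime `n p ≤ 1`:

* `card_embs_le_closure` : for a host `E₀` all of whose sub-slot-sets `A` have at most
  `2 n! p^|A|` stabilising permutations, and a CONNECTED pattern `T`, the number of embeddings of
  `T` into the host is at most `(e^45 p)^|T| n^{v_T}` (`0 < p < 1/(8·10^22)`, `n p ≤ 1`);
* `hlow_closure` : hence, under the hypothesis `hE` of S0076, `inj(T,H) ≤ (e^45 p)^|T| n^{v_T}`
  for EVERY pattern `T` — this is exactly the hypothesis `hlow` of helper68's
  `s0076_of_middle` with `K₁ = e^45`;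
* `s0076_of_hmid` : the conclusion of S0076 from its hypotheses and ONE missing piece `hmid`
  (the counting bound for the least `k ≥ 2` with `n p^k ≤ 1`, outside the dense regime).

`hmid` is NOT proved anywhere: row 55 is NOT proved, and this file is imported by no S-file.

Leaves: helper52 (`StarLeaves`, `PairCount`, `ClosureNumeric`, `VSL`), helper84 (`Components`),
helper65 (`PatCard`), glue by helper68 (`MiddleSplit`).
-/

set_option autoImplicit false
set_option linter.unusedSectionVars false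
set_option linter.unusedVariables false

namespace Crest.Agent.Helper77.S0076

open Finset Crest.CombinatoricsR.RandomGraph Crest.Agent.Helper52.PP
open scoped Classical

variable {n : ℕ}

/-- **Closure theorem, embedding form** (`n p ≤ 1`, connected pattern). -/
theorem card_embs_le_closure (E₀ : Finset (EdgeSlot n)) (p : ℝ) (hp : 0 < p)
    (hp8 : 8 * 10 ^ 22 * p < 1) (hnp : (n : ℝ) * p ≤ 1)
    (hstab : ∀ A ⊆ E₀, (((Finset.univ.filter (fun σ : Equiv.Perm (Fin n) =>
        A.map (slotPerm σ).toEmbedding = A)).card : ℕ) : ℝ)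
          ≤ 2 * (n.factorial : ℝ) * p ^ A.card)
    (T : Finset (EdgeSlot n)) (hT : PatConn T) :
    ((embs E₀ T).card : ℝ) ≤ (Real.exp 45 * p) ^ T.card * (n : ℝ) ^ (vset T).card := by
  have hTne : T.Nonempty := hT.1
  have hq : (1 + (1 / 4 : ℝ)) ^ 2 * p ≤ 1 := by nlinarith
  have hpat : ∀ φ ∈ embs E₀ T, T.card + (exEdges E₀ T φ).card
        + ∑ N : Finset (Fin n), (outCls E₀ T φ N).card * N.card
          ≤ (patE T (exEdges E₀ T φ) (fun N => (outCls E₀ T φ N).card)).card := by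
    intro φ hφ
    refine Crest.Agent.Helper65.S0076.card_patE_ge T (exEdges E₀ T φ)
      (fun N => (outCls E₀ T φ N).card) ?_ ?_ ?_
    · rw [Finset.disjoint_left]
      intro t ht ht'
      exact ((mem_exEdges E₀ T φ t).1 ht').1 ht
    · intro t ht
      exact ((mem_exEdges E₀ T φ t).1 ht).2.1
    · intro N hN
      obtain ⟨u, hu⟩ := Finset.card_pos.1 (Nat.pos_of_ne_zero hN)
      exact ((mem_outCls E₀ T φ N u).1 hu).2.1
  have hP : (Finset.univ.filter (fun t : EdgeSlot n => ∀ x ∈ t.1, x ∈ vset T)).card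
      ≤ (vset T).card ^ 2 := by
    convert Crest.Agent.Helper52.S0076.card_pairs_le (vset T)
  have h1 := card_embs_le E₀ p hp.le hstab T hTne (Crest.Agent.Helper52.S0076.nb E₀)
    (fun φ hφ x₀ hx₀ => Crest.Agent.Helper52.S0076.connFrom_image E₀ T hT φ hφ x₀ hx₀)
    (fun B => Crest.Agent.Helper52.S0076.degsum_le E₀ B)
    (1 / 4 : ℝ) (by norm_num) hq hpat hP
  have e1 : ((1 / 4 : ℝ))⁻¹ = 4 := by norm_num
  have e2 : (1 + (1 / 4 : ℝ)) ^ 2 = 25 / 16 := by norm_num
  rw [e1, e2] at h1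
  have hvn : (vset T).card ≤ n := by
    have := Finset.card_le_univ (vset T)
    simpa using this
  have he : 1 ≤ T.card := Finset.card_pos.2 hTne
  have h2 := Crest.Agent.Helper52.S0076.closure_numeric n (vset T).card T.card p hp hnp hvn
    (Crest.Agent.Helper52.S0076.card_vset_le T) he
  have hn0 : (0 : ℝ) ≤ (n : ℝ) ^ (vset T).card := by positivity
  calc ((embs E₀ T).card : ℝ)
      ≤ 2 * Real.exp 1 * (4 : ℝ) ^ ((vset T).card - 1) * ((vset T).card : ℝ)
          * (n : ℝ) ^ (vset T).card * ((25 / 16 : ℝ) * p) ^ T.card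
          * ((1 + (25 / 16 : ℝ) * p) ^ ((vset T).card ^ 2)
            * Real.exp (2 * (n : ℝ) * ((1 + (25 / 16 : ℝ) * p) ^ (vset T).card - 1))) := h1
    _ = (2 * Real.exp 1 * (4 : ℝ) ^ ((vset T).card - 1) * ((vset T).card : ℝ)
          * ((25 / 16 : ℝ) * p) ^ T.card * (1 + (25 / 16 : ℝ) * p) ^ ((vset T).card ^ 2)
          * Real.exp (2 * (n : ℝ) * ((1 + (25 / 16 : ℝ) * p) ^ (vset T).card - 1)))
          * (n : ℝ) ^ (vset T).card := by ring
    _ ≤ (Real.exp 45 * p) ^ T.card * (n : ℝ) ^ (vset T).card :=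
        mul_le_mul_of_nonneg_right h2 hn0

/-- **Closure theorem** (`n p ≤ 1`): the hypothesis `hlow` of `s0076_of_middle`, `K₁ = e^45`. -/
theorem hlow_closure (n : ℕ) (W : Type) [Fintype W] [DecidableEq W]
    (H : SimpleGraph W) [DecidableRel H.Adj] (hW : Fintype.card W ≤ n) (p : ℝ)
    (hE : ∀ F : H.Subgraph, (1 : ℝ) / 2 ≤ gnpExpect n p (fun G => (G.copyCount F.coe : ℝ)))
    (hp : 0 < p) (hp8 : 8 * 10 ^ 22 * p < 1) (hnp : (n : ℝ) * p ≤ 1) :
    ∀ T : Finset (EdgeSlot n),
      (injCount H T : ℝ) ≤ (Real.exp 45 * p) ^ T.card * (n : ℝ) ^ (vset T).card := by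
  obtain ⟨f₀⟩ : Nonempty (W ↪ Fin n) :=
    Function.Embedding.nonempty_of_card_le (by simpa using hW)
  have hstab : ∀ A ⊆ slots H f₀, (((Finset.univ.filter (fun σ : Equiv.Perm (Fin n) =>
        A.map (slotPerm σ).toEmbedding = A)).card : ℕ) : ℝ)
          ≤ 2 * (n.factorial : ℝ) * p ^ A.card :=
    fun A hA => by convert card_stab_le H p hp.le hE f₀ A hA
  refine Crest.Agent.Helper84.S0076.injCount_le_of_patConn H (Real.exp 45 * p)
    (mul_nonneg (Real.exp_pos 45).le hp.le) ?_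
  intro T hT
  have h1 : (injCount H T : ℝ) ≤ ((embs (slots H f₀) T).card : ℝ) := by
    exact_mod_cast Crest.Agent.Helper84.S0076.injCount_le_card_embs H f₀ T
  exact le_trans h1 (card_embs_le_closure (slots H f₀) p hp hp8 hnp hstab T hT)

/-- `e^45 · e^2 ≤ 8·10^22`. -/
theorem exp_45_mul_exp_2_le : Real.exp 45 * Real.exp 2 ≤ 8 * 10 ^ 22 := by
  have h1 : Real.exp 1 ≤ 2.72 := by
    have := Real.exp_one_lt_d9
    linarith
  have h2 : Real.exp 45 * Real.exp 2 = Real.exp 1 ^ 47 := by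
    rw [← Real.exp_add, ← Real.exp_nat_mul]
    norm_num
  rw [h2]
  calc Real.exp 1 ^ 47 ≤ (2.72 : ℝ) ^ 47 := pow_le_pow_left₀ (Real.exp_pos 1).le h1 47
    _ ≤ 8 * 10 ^ 22 := by norm_num

/-- **S0076 modulo the middle regime only** (conditional; `hmid` is NOT proved anywhere). -/
theorem s0076_of_hmid (n : ℕ) (hn : 2 ≤ n) (W : Type) [Fintype W] [DecidableEq W]
    (H : SimpleGraph W) [DecidableRel H.Adj] (hW : Fintype.card W ≤ n)
    (hH : 1 ≤ H.edgeFinset.card) (p : ℝ) (hp0 : 0 ≤ p) (hp1 : p ≤ 1)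
    (hE : ∀ F : H.Subgraph, (1 : ℝ) / 2 ≤ gnpExpect n p (fun G => (G.copyCount F.coe : ℝ)))
    (hmid : 0 < p → 8 * 10 ^ 22 * p < 1 → ∀ k : ℕ, 2 ≤ k → (n : ℝ) * p ^ k ≤ 1 →
      (∀ j < k, 1 < (n : ℝ) * p ^ j) →
      ¬ ((2 * n : ℝ) ≤ Real.exp (n * (Crest.Agent.Helper68.S0076.Dense.C₀ * p) ^ k) ∧
          (k : ℝ) ^ 2 ≤ (Crest.Agent.Helper68.S0076.Dense.C₀ * p)
            * ((n : ℝ) * (Crest.Agent.Helper68.S0076.Dense.C₀ * p) ^ k) ^ 2) →
      ∀ T : Finset (EdgeSlot n), 2 ^ (3 * 10 ^ 21) ≤ T.card →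
        (injCount H T : ℝ)
          ≤ (8 * 10 ^ 22 * p) ^ T.card * (n.descFactorial (vset T).card : ℝ)) :
    (1 : ℝ) / 2 ≤ gnpProb n
      (min 1 (2048 * Real.exp 50 * p * (1 + Real.logb 2 (H.edgeFinset.card : ℝ))))
      {G | H.IsContained G} := by
  refine Crest.Agent.Helper68.S0076.Dense.s0076_of_middle n hn W H hW hH p hp0 hp1 hE
    (Real.exp 45) (Real.exp_pos 45).le exp_45_mul_exp_2_le ?_ hmid
  intro hp hp8 hnp
  exact hlow_closure n W H hW p hE hp hp8 hnp

end Crest.Agent.Helper77.S0076
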